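import Mathlib
import Crest.Prelude.Def_CStarEmbedding
/-! Universal properties of C⋆-algebras: extension lemma, generated subalgebra, full group algebra. -/
set_option autoImplicit false
namespace Crest.Agent.KE
open Crest.AnalysisR.CStarEmbedding
open scoped ENNReal

theorem extend {A B ι : Type*} [CStarAlgebra A] [CStarAlgebra B] (a : ι → A) (b : ι → B)
    (hgen : (StarAlgebra.adjoin ℂ (Set.range a)).topologicalClosure = ⊤)
    (h : ∀ z ∈ StarAlgebra.adjoin ℂ (Set.range fun i => (a i, b i)), ‖z.2‖ ≤ ‖z.1‖) :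
    ∃ φ : A →⋆ₐ[ℂ] B, ∀ i, φ (a i) = b i := by
  let D := (StarAlgebra.adjoin ℂ (Set.range fun i => (a i, b i))).topologicalClosure
  have hD : IsClosed (D : Set (A × B)) := StarSubalgebra.isClosed_topologicalClosure _
  have h2 : ∀ z ∈ D, ‖z.2‖ ≤ ‖z.1‖ := fun z hz =>
    closure_minimal (t := {z : A × B | ‖z.2‖ ≤ ‖z.1‖}) h
      (isClosed_le continuous_snd.norm continuous_fst.norm) hz
  let f : D →⋆ₐ[ℂ] A := (StarAlgHom.fst ℂ A B).comp D.subtype
  have hf : ∀ z : D, ‖f z‖ = ‖z‖ := fun z => by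
    change ‖z.1.1‖ = ‖z.1‖
    rw [Prod.norm_def, max_eq_left (h2 _ z.2)]
  have hiso : Isometry f := AddMonoidHomClass.isometry_of_norm f hf
  haveI : CompleteSpace D := hD.completeSpace_coe
  have hmem : ∀ i, (a i, b i) ∈ D := fun i =>
    StarSubalgebra.le_topologicalClosure _ (StarAlgebra.subset_adjoin ℂ _ ⟨i, rfl⟩)
  have hsurj : Function.Surjective f := by
    have h3 : StarAlgebra.adjoin ℂ (Set.range a) ≤ f.range :=
      StarAlgebra.adjoin_le (by rintro _ ⟨i, rfl⟩; exact ⟨⟨_, hmem i⟩, rfl⟩)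
    have h4 := StarSubalgebra.topologicalClosure_minimal h3 hiso.isClosedEmbedding.isClosed_range
    rw [hgen] at h4
    exact fun x => h4 StarSubalgebra.mem_top
  let e := StarAlgEquiv.ofBijective f ⟨hiso.injective, hsurj⟩
  refine ⟨((StarAlgHom.snd ℂ A B).comp D.subtype).comp (e.symm : A →⋆ₐ[ℂ] D), fun i => ?_⟩
  have : e.symm (a i) = ⟨_, hmem i⟩ := by rw [StarAlgEquiv.symm_apply_eq]; rfl
  change (e.symm (a i)).1.2 = b i
  rw [this]

/-- the C⋆-algebra generated by a family -/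
noncomputable abbrev Gen {C ι : Type*} [CStarAlgebra C] (c : ι → C) : StarSubalgebra ℂ C :=
  (StarAlgebra.adjoin ℂ (Set.range c)).topologicalClosure

instance {C ι : Type*} [CStarAlgebra C] (c : ι → C) : IsClosed (Gen c : Set C) :=
  StarSubalgebra.isClosed_topologicalClosure _

theorem mem_Gen {C ι : Type*} [CStarAlgebra C] (c : ι → C) (i : ι) : c i ∈ Gen c :=
  StarSubalgebra.le_topologicalClosure _ (StarAlgebra.subset_adjoin ℂ _ ⟨i, rfl⟩)

theorem gen_top {C ι : Type*} [CStarAlgebra C] (c : ι → C) :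
    (StarAlgebra.adjoin ℂ (Set.range fun i => (⟨c i, mem_Gen c i⟩ : Gen c))).topologicalClosure
      = ⊤ := by
  rw [StarSubalgebra.eq_top_iff]
  intro x
  change x ∈ closure _
  rw [Topology.IsEmbedding.subtypeVal.closure_eq_preimage_closure_image]
  have := StarAlgHom.map_adjoin (Gen c).subtype (Set.range fun i => (⟨c i, mem_Gen c i⟩ : Gen c))
  have h2 := congrArg (fun S : StarSubalgebra ℂ C => (S : Set C)) this
  simp only [StarSubalgebra.coe_map, StarSubalgebra.coe_subtype, ← Set.range_comp] at h2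
  rw [h2]
  exact x.2

noncomputable instance lpCStar {J : Type*} {A : J → Type*} [∀ i, Nontrivial (A i)]
    [∀ i, CStarAlgebra (A i)] : CStarAlgebra (lp A ∞) where

/-- a unitary representation in a nontrivial C⋆-algebra -/
structure Model (Γ : Type) [Group Γ] where
  B : Type
  [inst : CStarAlgebra B]
  [nt : Nontrivial B]
  w : Γ →* unitary B

attribute [instance] Model.inst Model.nt

/-- evaluation of the group algebra -/
noncomputable def ev {Γ B : Type*} [Group Γ] [CStarAlgebra B] (w : Γ →* unitary B) :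
    MonoidAlgebra ℂ Γ →ₐ[ℂ] B :=
  MonoidAlgebra.lift ℂ B Γ ((unitary B).subtype.comp w)

theorem ev_of {Γ B : Type*} [Group Γ] [CStarAlgebra B] (w : Γ →* unitary B) (g : Γ) :
    ev w (MonoidAlgebra.of ℂ Γ g) = w g := MonoidAlgebra.lift_of _ _

theorem ev_bdd {Γ : Type} [Group Γ] (q : MonoidAlgebra ℂ Γ) :
    ∃ C : ℝ, ∀ M : Model Γ, ‖ev M.w q‖ ≤ C := by
  induction q using MonoidAlgebra.induction_on with
  | of g => exact ⟨1, fun M => by rw [ev_of, CStarRing.norm_coe_unitary]⟩
  | add x y hx hy =>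
    obtain ⟨C, hC⟩ := hx
    obtain ⟨D, hD⟩ := hy
    exact ⟨C + D, fun M => by rw [map_add]; exact norm_add_le_of_le (hC M) (hD M)⟩
  | smul r x hx =>
    obtain ⟨C, hC⟩ := hx
    exact ⟨‖r‖ * C, fun M => by
      rw [map_smul, norm_smul]; exact mul_le_mul_of_nonneg_left (hC M) (norm_nonneg _)⟩

theorem exists_full (Γ : Type) [Group Γ] :
    ∃ (A : Type) (_ : CStarAlgebra A) (u : Γ →* unitary A), IsFullGroupCStar A u := by
  have hch : ∀ j : MonoidAlgebra ℂ Γ × ℕ, ∃ M : Model Γ, ∀ M' : Model Γ,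
      ‖ev M'.w j.1‖ ≤ ‖ev M.w j.1‖ + 1 / ((j.2 : ℝ) + 1) := by
    rintro ⟨q, n⟩
    obtain ⟨C, hC⟩ := ev_bdd q
    have hb : BddAbove (Set.range fun M : Model Γ => ‖ev M.w q‖) := ⟨C, by rintro _ ⟨M, rfl⟩; exact hC M⟩
    have hne : (Set.range fun M : Model Γ => ‖ev M.w q‖).Nonempty := ⟨_, ⟨Model.mk ℂ 1, rfl⟩⟩
    obtain ⟨_, ⟨M, rfl⟩, hM⟩ := Real.add_neg_lt_sSup hne (ε := -(1 / ((n : ℝ) + 1)))
      (by have : (0 : ℝ) < 1 / ((n : ℝ) + 1) := Nat.one_div_pos_of_nat; linarith)
    exact ⟨M, fun M' => by have := le_csSup hb ⟨M', rfl⟩; simp only at this hM ⊢; linarith⟩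
  choose M hM using hch
  let C := lp (fun j => (M j).B) ∞
  let c : Γ → C := fun g => ⟨fun j => ((M j).w g : (M j).B),
    memℓp_infty ⟨1, by rintro _ ⟨j, rfl⟩; simp only [CStarRing.norm_coe_unitary, le_refl]⟩⟩
  have c1 : c 1 = 1 := lp.ext (funext fun j => by
    change (((M j).w 1 : unitary _) : (M j).B) = 1; simp)
  have cmul : ∀ g h, c (g * h) = c g * c h := fun g h => lp.ext (funext fun j => by
    change (((M j).w (g * h) : unitary _) : (M j).B) = (M j).w g * (M j).w h; simp)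
  have cstar : ∀ g, star (c g) = c g⁻¹ := fun g => lp.ext (funext fun j => by
    change star (((M j).w g : unitary _) : (M j).B) = (M j).w g⁻¹
    rw [map_inv, ← Unitary.star_eq_inv, Unitary.coe_star])
  let a : Γ → Gen c := fun g => ⟨c g, mem_Gen c g⟩
  have a1 : a 1 = 1 := Subtype.ext c1
  have amul : ∀ g h, a (g * h) = a g * a h := fun g h => Subtype.ext (cmul g h)
  have astar : ∀ g, star (a g) = a g⁻¹ := fun g => Subtype.ext (cstar g)
  let u : Γ →* unitary (Gen c) :=
    { toFun := fun g => ⟨a g, by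
        rw [Unitary.mem_iff, astar, ← amul, ← amul, inv_mul_cancel, mul_inv_cancel, a1]; simp⟩
      map_one' := Subtype.ext a1
      map_mul' := fun g h => Subtype.ext (amul g h) }
  refine ⟨Gen c, inferInstance, u, gen_top c, fun B _ w => extend _ _ (gen_top c) ?_⟩
  intro z hz
  rcases subsingleton_or_nontrivial B with hB | hB
  · rw [Subsingleton.elim z.2 0, norm_zero]; exact norm_nonneg _
  have hq : ∃ q : MonoidAlgebra ℂ Γ, ((ev u).prod (ev w)) q = z := by
    have h1 : (StarAlgebra.adjoin ℂ (Set.range fun g => (a g, (w g : B)))).toSubalgebra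
        ≤ ((ev u).prod (ev w)).range := by
      rw [StarAlgebra.adjoin_toSubalgebra]
      refine Algebra.adjoin_le ?_
      rintro x (⟨g, rfl⟩ | ⟨g, hg⟩)
      · refine ⟨MonoidAlgebra.of ℂ Γ g, ?_⟩
        simp only [AlgHom.toRingHom_eq_coe, RingHom.coe_coe, AlgHom.prod_apply, ev_of]
        rfl
      · refine ⟨MonoidAlgebra.of ℂ Γ g⁻¹, ?_⟩
        simp only [AlgHom.toRingHom_eq_coe, RingHom.coe_coe, AlgHom.prod_apply, ev_of]
        rw [← star_star x, ← hg, map_inv w, ← Unitary.star_eq_inv, Unitary.coe_star]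
        exact Prod.ext (astar g).symm rfl
    exact h1 hz
  obtain ⟨q, rfl⟩ := hq
  clear hz
  have hco : ∀ j, ((ev u q : Gen c) : C) j = ev (M j).w q := by
    intro j
    induction q using MonoidAlgebra.induction_on with
    | of g => rw [ev_of, ev_of]; rfl
    | add x y hx hy => rw [map_add, map_add, ← hx, ← hy]; rfl
    | smul r x hx => rw [map_smul, map_smul, ← hx]; rfl
  change ‖ev w q‖ ≤ ‖((ev u q : Gen c) : C)‖
  refine le_of_forall_pos_le_add fun ε hε => ?_
  obtain ⟨n, hn⟩ := exists_nat_one_div_lt hε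
  have h1 := hM (q, n) (Model.mk B w)
  have h2 := lp.norm_apply_le_norm (by simp) ((ev u q : Gen c) : C) (q, n)
  rw [hco] at h2
  simp only at h1
  linarith

end Crest.Agent.KE
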