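import Crest.Agent.KE.MatB
import Crest.Agent.KE.Univ
/-! The Cuntz algebra `O₂` on `ℓ²(Bool^ℕ)`: universality and an explicit matrix approximation. -/
set_option autoImplicit false
namespace Crest.Agent.KE
open Finset Filter Topology Crest.AnalysisR.CStarEmbedding
open scoped InnerProductSpace ComplexConjugate

/-- the Hilbert space -/
abbrev HH : Type := L2 (Stream' Bool)

/-- the two isometries -/
noncomputable def SS (i : Bool) : HH →L[ℂ] HH :=
  iso (Stream'.cons i) (Stream'.cons_injective_right i)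

/-- Cuntz relations -/
structure CRel {B : Type*} [CStarAlgebra B] (t : Bool → B) : Prop where
  iso : ∀ i, star (t i) * t i = 1
  sum : ∑ i, t i * star (t i) = 1

theorem CRel.orth {B : Type*} [CStarAlgebra B] {t : Bool → B} (h : CRel t) (i j : Bool) :
    star (t i) * t j = if i = j then 1 else 0 := by
  split_ifs with hij
  · rw [hij, h.iso]
  · have h1 : t i * star (t i) + t j * star (t j) = 1 := by
      have := h.sum
      rw [Fintype.sum_bool] at this
      cases i <;> cases j <;> simp_all [add_comm]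
    have h2 := congrArg (fun a => star (t i) * a * t i) h1
    simp only [mul_add, add_mul, mul_one, ← mul_assoc, h.iso, one_mul] at h2
    rw [← CStarRing.mul_star_self_eq_zero_iff, star_mul, star_star, ← mul_assoc]
    simpa using h2

theorem crel_SS : CRel SS := by
  refine ⟨fun i => star_iso_mul _ _, L2_ext fun y => ?_⟩
  rw [← Stream'.eta y, ContinuousLinearMap.sum_apply, Finset.sum_eq_single y.head]
  · rw [ContinuousLinearMap.mul_apply, SS, star_iso_dl, iso_dl]; rfl
  · intro b _ hb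
    rw [ContinuousLinearMap.mul_apply, SS, star_iso_dl_of_not, map_zero]
    exact fun x hx => hb (Stream'.cons_injective2 hx).1
  · simp

/-- products along words -/
noncomputable def tw {B : Type*} [CStarAlgebra B] (t : Bool → B) (μ : List Bool) : B :=
  (μ.map t).prod

theorem tw_cons {B : Type*} [CStarAlgebra B] (t : Bool → B) (i : Bool) (μ : List Bool) :
    tw t (i :: μ) = t i * tw t μ := by simp [tw]

/-- orthonormal family indexed by words -/
noncomputable def ee (μ : List Bool) : HH :=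
  dl (Stream'.appendStream' μ (Stream'.cons true (Stream'.const false)))

theorem ee_cons (i : Bool) (μ : List Bool) : ee (i :: μ) = SS i (ee μ) := by
  rw [ee, ee, SS, iso_dl]; rfl

theorem orth_ee : Orthonormal ℂ ee := by
  have h0 : ∀ ν : List Bool, Stream'.appendStream' ν (Stream'.cons true (Stream'.const false)) ≠
      Stream'.const false := by
    intro ν
    induction ν with
    | nil => intro h; simpa using congrArg Stream'.head h
    | cons j ν ih => intro h; exact ih (by simpa [Stream'.cons_append_stream] using congrArg Stream'.tail h)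
  refine orth_dl.comp _ fun μ => ?_
  induction μ with
  | nil =>
    rintro (_ | ⟨j, ν⟩) h
    · rfl
    · exact absurd (Stream'.cons_injective2 h).2.symm (h0 ν)
  | cons i μ ih =>
    rintro (_ | ⟨j, ν⟩) h
    · exact absurd (Stream'.cons_injective2 h).2 (h0 μ)
    · obtain ⟨h1, h2⟩ := Stream'.cons_injective2 h
      rw [h1, ih h2]

/-- words of given length -/
def lev : ℕ → Finset (List Bool)
  | 0 => {[]}
  | ℓ + 1 => (univ ×ˢ lev ℓ).map ⟨fun p : Bool × List Bool => p.1 :: p.2, by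
      rintro ⟨a, b⟩ ⟨c, d⟩ h; simpa using h⟩

theorem sum_lev_succ {M : Type*} [AddCommMonoid M] (f : List Bool → M) (ℓ : ℕ) :
    ∑ μ ∈ lev (ℓ + 1), f μ = ∑ i, ∑ μ ∈ lev ℓ, f (i :: μ) := by
  rw [lev, Finset.sum_map, Finset.sum_product]; rfl

theorem length_lev {ℓ : ℕ} {μ : List Bool} (h : μ ∈ lev ℓ) : μ.length = ℓ := by
  induction ℓ generalizing μ with
  | zero => simp_all [lev]
  | succ ℓ ih =>
    obtain ⟨⟨i, ν⟩, h1, rfl⟩ := Finset.mem_map.mp h
    simp [ih (Finset.mem_product.mp h1).2]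

/-- words of length `< L` -/
def WW (L : ℕ) : Finset (List Bool) := (range L).biUnion lev

theorem sum_WW {M : Type*} [AddCommMonoid M] (f : List Bool → M) (L : ℕ) :
    ∑ μ ∈ WW L, f μ = ∑ ℓ ∈ range L, ∑ μ ∈ lev ℓ, f μ :=
  Finset.sum_biUnion fun _ _ _ _ hab => Finset.disjoint_left.mpr fun _ h1 h2 =>
    hab ((length_lev h1).symm.trans (length_lev h2))

theorem norm_sum_orth {H ι : Type*} [NormedAddCommGroup H] [InnerProductSpace ℂ H] {v : ι → H}
    (hv : Orthonormal ℂ v) (y : ι → ℂ) (s : Finset ι) :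
    ‖∑ i ∈ s, y i • v i‖ ^ 2 = ∑ i ∈ s, ‖y i‖ ^ 2 := by
  have := hv.inner_sum y y s
  rw [inner_self_eq_norm_sq_to_K] at this
  simp only [Complex.conj_mul'] at this
  apply Complex.ofReal_injective
  push_cast
  exact this

section
variable {B : Type*} [CStarAlgebra B] (t : Bool → B)

/-- compression to words followed by the word map -/
noncomputable def EE (A C : Finset (List Bool)) : (HH →L[ℂ] HH) →ₗ[ℂ] B where
  toFun x := ∑ μ ∈ A, ∑ ν ∈ C, ⟪ee μ, x (ee ν)⟫_ℂ • (tw t μ * star (tw t ν))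
  map_add' x y := by simp [inner_add_right, add_smul, Finset.sum_add_distrib]
  map_smul' c x := by simp [inner_smul_right, Finset.smul_sum, smul_smul]

theorem EE_apply (A C : Finset (List Bool)) (x : HH →L[ℂ] HH) :
    EE t A C x = ∑ μ ∈ A, ∑ ν ∈ C, ⟪ee μ, x (ee ν)⟫_ℂ • (tw t μ * star (tw t ν)) := rfl

theorem EE_bound (A C : Finset (List Bool)) {a b : ℝ} (ha : 0 < a) (hb : 0 ≤ b)
    (hA : ∑ μ ∈ A, tw t μ * star (tw t μ) = (a : ℂ) • 1)
    (hC : ∑ μ ∈ C, tw t μ * star (tw t μ) = (b : ℂ) • 1) (x : HH →L[ℂ] HH) :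
    ‖EE t A C x‖ ^ 2 ≤ a * b * ‖x‖ ^ 2 := by
  have := mat_bound (fun μ : A => tw t μ) (fun ν : C => tw t ν) (fun μ ν => ⟪ee μ, x (ee ν)⟫_ℂ)
    (c := ‖x‖) ha hb (by rw [← hA, Finset.sum_coe_sort A fun μ => tw t μ * star (tw t μ)])
    (by rw [← hC, Finset.sum_coe_sort C fun μ => tw t μ * star (tw t μ)]) fun y => by
      have e : ∀ μ : A, ∑ ν : C, ⟪ee μ, x (ee ν)⟫_ℂ * y ν = ⟪ee μ, x (∑ ν : C, y ν • ee ν)⟫_ℂ :=
        fun μ => by simp [inner_sum, inner_smul_right, mul_comm]
      simp only [e]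
      refine le_trans ((orth_ee.comp _ Subtype.val_injective).sum_inner_products_le _) ?_
      rw [← norm_sum_orth (orth_ee.comp _ Subtype.val_injective) y univ, ← mul_pow]
      exact pow_le_pow_left₀ (norm_nonneg _) (x.le_opNorm _) 2
  rw [EE_apply, ← Finset.sum_coe_sort A]
  simp only [← Finset.sum_coe_sort C]
  exact this

theorem EE_WW (L : ℕ) (C : Finset (List Bool)) (x : HH →L[ℂ] HH) :
    EE t (WW L) C x = ∑ ℓ ∈ range L, EE t (lev ℓ) C x := by
  simp only [EE_apply, sum_WW]

theorem EE_S (ℓ : ℕ) (C : Finset (List Bool)) (x : HH →L[ℂ] HH) (i : Bool) :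
    EE t (lev (ℓ + 1)) C (SS i * x) = t i * EE t (lev ℓ) C x := by
  have e : ∀ j u v, ⟪SS j u, SS i v⟫_ℂ = if j = i then ⟪u, v⟫_ℂ else 0 := by
    intro j u v
    rw [← ContinuousLinearMap.adjoint_inner_right, ← ContinuousLinearMap.star_eq_adjoint,
      ← ContinuousLinearMap.mul_apply, crel_SS.orth]
    split_ifs <;> simp
  simp only [EE_apply, sum_lev_succ, ee_cons, ContinuousLinearMap.mul_apply, e, ite_smul, zero_smul,
    Finset.sum_ite_irrel, Finset.sum_const_zero, Finset.sum_ite_eq', Finset.mem_univ, if_true,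
    tw_cons, Finset.mul_sum, mul_smul_comm, mul_assoc]

/-- the approximating maps -/
noncomputable def Th (L : ℕ) : (HH →L[ℂ] HH) →ₗ[ℂ] B := ((L : ℂ)⁻¹) • EE t (WW L) (WW L)

theorem Th_apply (L : ℕ) (x : HH →L[ℂ] HH) :
    Th t L x = ((L : ℂ)⁻¹) • EE t (WW L) (WW L) x := rfl

variable {t} (ht : CRel t)
include ht

theorem EE_starS (ℓ : ℕ) (C : Finset (List Bool)) (x : HH →L[ℂ] HH) (i : Bool) :
    EE t (lev ℓ) C (star (SS i) * x) = star (t i) * EE t (lev (ℓ + 1)) C x := by
  simp only [EE_apply, sum_lev_succ, ee_cons, ContinuousLinearMap.mul_apply, tw_cons, Finset.mul_sum,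
    mul_smul_comm, ← mul_assoc, ht.orth, ite_mul, zero_mul, one_mul, smul_ite, smul_zero,
    Finset.sum_ite_irrel, Finset.sum_const_zero, Finset.sum_ite_eq, Finset.mem_univ, if_true,
    ContinuousLinearMap.star_eq_adjoint, ContinuousLinearMap.adjoint_inner_right]

theorem sum_lev (ℓ : ℕ) : ∑ μ ∈ lev ℓ, tw t μ * star (tw t μ) = 1 := by
  induction ℓ with
  | zero => simp [lev, tw]
  | succ ℓ ih =>
    rw [sum_lev_succ, ← ht.sum]
    refine Finset.sum_congr rfl fun i _ => ?_
    have : t i * star (t i) = t i * (∑ μ ∈ lev ℓ, tw t μ * star (tw t μ)) * star (t i) := by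
      rw [ih, mul_one]
    rw [this]
    simp only [tw_cons, star_mul, Finset.mul_sum, Finset.sum_mul, mul_assoc]

theorem sum_WW_eq (L : ℕ) : ∑ μ ∈ WW L, tw t μ * star (tw t μ) = ((L : ℝ) : ℂ) • 1 := by
  simp only [sum_WW, sum_lev ht, Finset.sum_const, Finset.card_range]
  rw [← Nat.cast_smul_eq_nsmul ℂ]; simp

theorem Th_le (L : ℕ) (x : HH →L[ℂ] HH) : ‖Th t L x‖ ≤ ‖x‖ := by
  rcases Nat.eq_zero_or_pos L with rfl | hL
  · simp [Th_apply]
  have hL' : (0 : ℝ) < L := by exact_mod_cast hL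
  have h := EE_bound t _ _ hL' hL'.le (sum_WW_eq ht L) (sum_WW_eq ht L) x
  have h2 : ‖EE t (WW L) (WW L) x‖ ≤ L * ‖x‖ :=
    abs_le_of_sq_le_sq' (by rw [mul_pow, sq (L : ℝ)]; exact h) (by positivity) |>.2
  rw [Th_apply, norm_smul, norm_inv, Complex.norm_natCast, inv_mul_le_iff₀ hL']
  exact h2

theorem Th_one {L : ℕ} (hL : 0 < L) : Th t L 1 = 1 := by
  classical
  have h := orthonormal_iff_ite.mp orth_ee
  have hL' : (L : ℂ) ≠ 0 := by exact_mod_cast hL.ne'
  have : EE t (WW L) (WW L) 1 = ∑ μ ∈ WW L, tw t μ * star (tw t μ) := by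
    rw [EE_apply]
    refine Finset.sum_congr rfl fun μ hμ => ?_
    simp [h, hμ]
  rw [Th_apply, this, sum_WW_eq ht, smul_smul]; simp [hL']

theorem bd_tendsto (ℓ : ℕ → ℕ) (x : HH →L[ℂ] HH) :
    Tendsto (fun L : ℕ => ((L : ℂ)⁻¹) • EE t (lev (ℓ L)) (WW L) x) atTop (𝓝 0) := by
  have h1 : Tendsto (fun L : ℕ => ‖x‖ * √((L : ℝ)⁻¹)) atTop (𝓝 0) := by
    have := (tendsto_inv_atTop_nhds_zero_nat (𝕜 := ℝ)).sqrt.const_mul ‖x‖
    simpa using this
  refine squeeze_zero_norm (fun L => ?_) h1
  have h := EE_bound t (lev (ℓ L)) (WW L) one_pos (Nat.cast_nonneg L) (by simp [sum_lev ht])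
    (sum_WW_eq ht L) x
  refine abs_le_of_sq_le_sq' ?_ (by positivity) |>.2
  rw [norm_smul, norm_inv, Complex.norm_natCast, mul_pow, mul_pow, Real.sq_sqrt (by positivity)]
  rcases Nat.eq_zero_or_pos L with rfl | hL
  · simp
  have hL' : (0 : ℝ) < L := by exact_mod_cast hL
  refine (mul_le_mul_of_nonneg_left h (by positivity)).trans (le_of_eq ?_)
  field_simp

theorem Th_S (i : Bool) (x : HH →L[ℂ] HH) :
    Tendsto (fun L => Th t L (SS i * x) - t i * Th t L x) atTop (𝓝 0) := by
  have h := (bd_tendsto ht (fun _ => 0) (SS i * x)).sub (bd_tendsto ht id (SS i * x))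
  rw [sub_zero] at h
  refine h.congr fun L => ?_
  have := Finset.sum_range_sub (fun ℓ => EE t (lev ℓ) (WW L) (SS i * x)) L
  simp only [Th_apply, EE_WW, mul_smul_comm, ← smul_sub, Finset.mul_sum, ← EE_S, id]
  congr 1
  rw [← neg_sub, ← this, Finset.sum_sub_distrib]; abel

theorem Th_starS (i : Bool) (x : HH →L[ℂ] HH) :
    Tendsto (fun L => Th t L (star (SS i) * x) - star (t i) * Th t L x) atTop (𝓝 0) := by
  have h := ((bd_tendsto ht id x).sub (bd_tendsto ht (fun _ => 0) x)).const_mul (star (t i))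
  rw [sub_zero, mul_zero] at h
  refine h.congr fun L => ?_
  have := Finset.sum_range_sub (fun ℓ => EE t (lev ℓ) (WW L) x) L
  simp only [Th_apply, EE_WW, mul_smul_comm, ← smul_sub, EE_starS ht, id, ← Finset.mul_sum,
    ← mul_sub]
  congr 2
  rw [← this, Finset.sum_sub_distrib]

theorem Th_tendsto {R : Type*} [Ring R] [Algebra ℂ R] [StarRing R] [StarModule ℂ R] (s : Bool → R)
    (f : R →⋆ₐ[ℂ] (HH →L[ℂ] HH)) (g : R →⋆ₐ[ℂ] B) (hf : ∀ i, f (s i) = SS i) (hg : ∀ i, g (s i) = t i)
    {z : R} (hz : z ∈ StarAlgebra.adjoin ℂ (Set.range s)) :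
    Tendsto (fun L => Th t L (f z)) atTop (𝓝 (g z)) := by
  have key : ∀ x, Tendsto (fun L => Th t L (f z * x) - g z * Th t L x) atTop (𝓝 0) := by
    have hz' : z ∈ Algebra.adjoin ℂ (Set.range s ∪ star (Set.range s)) := hz
    clear hz
    induction hz' using Algebra.adjoin_induction with
    | mem z hz =>
      rcases hz with ⟨i, rfl⟩ | ⟨i, hi⟩
      · intro x; rw [hf, hg]; exact Th_S ht i x
      · intro x
        rw [← star_star z, ← hi, map_star, map_star, hf, hg]; exact Th_starS ht i x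
    | algebraMap r => intro x; simp [Algebra.algebraMap_eq_smul_one]
    | add a b _ _ ha hb =>
      intro x
      have := (ha x).add (hb x)
      rw [add_zero] at this
      refine this.congr fun L => ?_
      simp only [map_add, add_mul]; abel
    | mul a b _ _ ha hb =>
      intro x
      have := (ha (f b * x)).add ((hb x).const_mul (g a))
      rw [mul_zero, add_zero] at this
      refine this.congr fun L => ?_
      simp only [map_mul, mul_sub, mul_assoc]; abel
  have := (key 1).add_const (g z)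
  rw [zero_add] at this
  refine this.congr' ?_
  filter_upwards [eventually_gt_atTop 0] with L hL
  rw [Th_one ht hL]; simp

end

/-- the generators of `O₂` -/
noncomputable def sO (i : Bool) : Gen SS := ⟨SS i, mem_Gen SS i⟩

theorem isCuntz : IsCuntzTwo (Gen SS) (sO true) (sO false) := by
  refine ⟨Subtype.ext (crel_SS.iso _), Subtype.ext (crel_SS.iso _), Subtype.ext ?_, ?_, ?_⟩
  · have := crel_SS.sum
    rw [Fintype.sum_bool] at this
    exact this
  · have : ({sO true, sO false} : Set (Gen SS)) = Set.range sO := by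
      ext x; simp [eq_comm, or_comm]
    rw [this]; exact gen_top SS
  · intro B _ t₁ t₂ h1 h2 h3
    let t : Bool → B := fun i => if i then t₁ else t₂
    have ht : CRel t := ⟨by rintro (_ | _) <;> simpa [t], by simpa [t] using h3⟩
    obtain ⟨φ, hφ⟩ := extend sO t (gen_top SS) fun z hz => by
      have := Th_tendsto ht (fun i => (sO i, t i)) ((Gen SS).subtype.comp (StarAlgHom.fst ℂ _ _))
        (StarAlgHom.snd ℂ _ _) (fun _ => rfl) (fun _ => rfl) hz
      exact le_of_tendsto' this.norm fun L => Th_le ht L _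
    exact ⟨φ, hφ true, hφ false⟩

theorem cpap {x : HH →L[ℂ] HH} (hx : x ∈ Gen SS) {ε : ℝ} (hε : 0 < ε) :
    ∀ᶠ L in atTop, ‖Th SS L x - x‖ ≤ ε := by
  obtain ⟨y, hy, hxy⟩ := Metric.mem_closure_iff.mp hx (ε / 3) (by positivity)
  have := Th_tendsto crel_SS SS (StarAlgHom.id ℂ _) (StarAlgHom.id ℂ _) (fun _ => rfl)
    (fun _ => rfl) hy
  filter_upwards [Metric.tendsto_nhds.mp this (ε / 3) (by positivity)] with L hL
  rw [dist_eq_norm] at hL hxy
  have e : Th SS L x - x = Th SS L (x - y) + (Th SS L y - y) - (x - y) := by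
    rw [map_sub]; abel
  have h1 := Th_le crel_SS L (x - y)
  have h2 := norm_sub_le (Th SS L (x - y) + (Th SS L y - y)) (x - y)
  have h3 := norm_add_le (Th SS L (x - y)) (Th SS L y - y)
  simp only [StarAlgHom.coe_id, id] at hL
  rw [e]; linarith

end Crest.Agent.KE
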