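import Crest.Agent.KE.Four
/-! No low-rank almost intertwiner into the finite models. -/
set_option autoImplicit false
namespace Crest.Agent.KE
open Finset
open scoped ComplexConjugate InnerProductSpace

/-- conjugation action on kernels -/
noncomputable def kerRep (X : Type) [Fintype X] :
    Equiv.Perm X →* Module.End ℝ (PiLp 2 fun _ : X × X => ℂ) where
  toFun σ :=
    { toFun := fun ρ => WithLp.toLp 2 fun p => ρ (σ⁻¹ p.1, σ⁻¹ p.2)
      map_add' := fun _ _ => rfl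
      map_smul' := fun _ _ => rfl }
  map_one' := rfl
  map_mul' _ _ := rfl

theorem kerRep_apply {X : Type} [Fintype X] (σ : Equiv.Perm X) (ρ : PiLp 2 fun _ : X × X => ℂ)
    (p : X × X) : kerRep X σ ρ p = ρ (σ⁻¹ p.1, σ⁻¹ p.2) := rfl

theorem kerRep_norm {X : Type} [Fintype X] (σ : Equiv.Perm X) (ρ : PiLp 2 fun _ : X × X => ℂ) :
    ‖kerRep X σ ρ‖ = ‖ρ‖ := by
  rw [← sq_eq_sq₀ (norm_nonneg _) (norm_nonneg _), PiLp.norm_sq_eq_of_L2, PiLp.norm_sq_eq_of_L2]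
  exact Fintype.sum_equiv (Equiv.prodCongr σ⁻¹ σ⁻¹) _ _ fun p => rfl

theorem fd_core {N k n : ℕ} (hk : 2 ^ (4 * N + 1) ≤ k) (hn : n ≤ N) (r : Fin n → W k → ℂ)
    (horth : ∀ j j', j ≠ j' → ∑ m, conj (r j m) * r j' m = 0) {z : ℂ} (hz : z ≠ 1) (hz1 : ‖z‖ = 1)
    (hr : ∀ j m, r j (m + fW k) = z * r j m) (T : I → Fin n → Fin n → ℂ)
    (hT1 : ∀ i j, ∑ j', ‖T i j j'‖ ^ 2 ≤ 1) (hT2 : ∀ i j', ∑ j, ‖T i j j'‖ ^ 2 ≤ 1) :
    ∑ i, (∑ j, ∑ j', T i j j' * ∑ m, conj (r j m) * r j' (((DW k).gen i)⁻¹ m)).re ≤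
      (4 - 1 / 2000000) * ∑ j, ∑ m, ‖r j m‖ ^ 2 := by
  classical
  let s : Fin n → ℝ := fun j => √(∑ m, ‖r j m‖ ^ 2)
  have s0 : ∀ j, 0 ≤ s j := fun j => Real.sqrt_nonneg _
  have ssq : ∀ j, s j ^ 2 = ∑ m, ‖r j m‖ ^ 2 := fun j =>
    Real.sq_sqrt (Finset.sum_nonneg fun _ _ => by positivity)
  let u : Fin n → W k → ℂ := fun j m => r j m / s j
  have ru : ∀ j m, r j m = s j * u j m := by
    intro j m
    by_cases h : s j = 0
    · have h1 := ssq j
      rw [h, zero_pow two_ne_zero, eq_comm,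
        Finset.sum_eq_zero_iff_of_nonneg fun _ _ => by positivity] at h1
      have := h1 m (mem_univ m)
      rw [h, norm_eq_zero.mp (pow_eq_zero_iff two_ne_zero |>.mp this)]; simp
    · have : (s j : ℂ) ≠ 0 := by exact_mod_cast h
      simp only [u]; field_simp
  have un : ∀ j, s j ≠ 0 → ∑ m, ‖u j m‖ ^ 2 = 1 := by
    intro j h
    simp only [u, norm_div, div_pow, ← Finset.sum_div, ← ssq, Complex.norm_real, Real.norm_eq_abs,
      sq_abs]
    exact div_self (pow_ne_zero _ h)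
  let b : Equiv.Perm (W k) → Fin n → Fin n → ℂ := fun σ j j' => ∑ m, conj (u j m) * u j' (σ⁻¹ m)
  let ρ : PiLp 2 fun _ : W k × W k => ℂ :=
    WithLp.toLp 2 fun p => ∑ j, s j * (u j p.1 * conj (u j p.2))
  have hρ : ∀ p, ρ p = ∑ j, s j * (u j p.1 * conj (u j p.2)) := fun _ => rfl
  set S := ∑ j, ∑ m, ‖r j m‖ ^ 2 with hS
  have hS' : S = ∑ j, s j ^ 2 := by simp only [hS, ssq]
  have hA : ∀ σ, ⟪ρ, kerRep _ σ ρ⟫_ℝ = ∑ j, ∑ j', s j * s j' * ‖b σ j j'‖ ^ 2 := by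
    intro σ
    rw [PiLp.inner_apply]
    simp only [Complex.inner, ← Complex.re_sum]
    rw [← Complex.ofReal_re (∑ j, ∑ j', s j * s j' * ‖b σ j j'‖ ^ 2)]
    congr 1
    push_cast
    simp only [← Complex.mul_conj', kerRep_apply, hρ, b, map_sum, map_mul, Complex.conj_conj,
      Complex.conj_ofReal, Finset.mul_sum, Finset.sum_mul]
    rw [Finset.sum_comm]
    refine Finset.sum_congr rfl fun j _ => ?_
    rw [Finset.sum_comm]
    refine Finset.sum_congr rfl fun j' _ => ?_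
    rw [Fintype.sum_prod_type, Finset.sum_comm]
    exact Finset.sum_congr rfl fun _ _ => Finset.sum_congr rfl fun _ _ => by ring
  have hρn : ‖ρ‖ ^ 2 = S := by
    have := hA 1
    rw [map_one, Module.End.one_apply, real_inner_self_eq_norm_sq] at this
    rw [this, hS']
    refine Finset.sum_congr rfl fun j _ => ?_
    rw [Finset.sum_eq_single j]
    · by_cases h : s j = 0
      · simp [h]
      · have : b 1 j j = 1 := by
          simp only [b, Complex.conj_mul', inv_one, Equiv.Perm.one_apply]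
          exact_mod_cast un j h
        rw [this]; simp [sq]
    · intro j' _ hj
      have : b 1 j j' = 0 := by
        simp only [b, u, inv_one, Equiv.Perm.one_apply, map_div₀, div_mul_div_comm,
          ← Finset.sum_div, horth j j' hj.symm, zero_div]
      simp [this]
    · simp
  have hterm : ∀ i, (∑ j, ∑ j', T i j j' * ∑ m, conj (r j m) * r j' (((DW k).gen i)⁻¹ m)).re ≤
      S - ‖kerRep _ ((DW k).gen i) ρ - ρ‖ ^ 2 / 4 := by
    intro i
    rw [norm_sub_sq_real, kerRep_norm, hρn, real_inner_comm, hA]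
    have h1 : ∀ j j', (T i j j' * ∑ m, conj (r j m) * r j' (((DW k).gen i)⁻¹ m)).re ≤
        (s j ^ 2 * ‖T i j j'‖ ^ 2) / 4 + (s j' ^ 2 * ‖T i j j'‖ ^ 2) / 4 +
          s j * s j' * ‖b ((DW k).gen i) j j'‖ ^ 2 / 2 := by
      intro j j'
      have e : ∑ m, conj (r j m) * r j' (((DW k).gen i)⁻¹ m) =
          (s j * s j' : ℝ) * b ((DW k).gen i) j j' := by
        simp only [ru, b, Finset.mul_sum, map_mul, Complex.conj_ofReal]
        push_cast
        exact Finset.sum_congr rfl fun _ _ => by ring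
      rw [e]
      refine (Complex.re_le_norm _).trans ?_
      have h2 : 0 ≤ s j * s j' := mul_nonneg (s0 j) (s0 j')
      rw [norm_mul, norm_mul, Complex.norm_real, Real.norm_of_nonneg h2]
      nlinarith [mul_nonneg h2 (sq_nonneg (‖T i j j'‖ - ‖b ((DW k).gen i) j j'‖)),
        mul_nonneg (sq_nonneg (s j - s j')) (sq_nonneg ‖T i j j'‖)]
    simp only [Complex.re_sum]
    refine (Finset.sum_le_sum fun j _ => Finset.sum_le_sum fun j' _ => h1 j j').trans ?_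
    simp only [Finset.sum_add_distrib, ← Finset.sum_div]
    have h3 : ∑ j, ∑ j', s j ^ 2 * ‖T i j j'‖ ^ 2 ≤ S := by
      rw [hS']
      refine Finset.sum_le_sum fun j _ => ?_
      rw [← Finset.mul_sum]; exact mul_le_of_le_one_right (by positivity) (hT1 i j)
    have h4 : ∑ j, ∑ j', s j' ^ 2 * ‖T i j j'‖ ^ 2 ≤ S := by
      rw [hS', Finset.sum_comm]
      refine Finset.sum_le_sum fun j _ => ?_
      rw [← Finset.mul_sum]; exact mul_le_of_le_one_right (by positivity) (hT2 i j)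
    linarith
  set D2 := ∑ i, ‖kerRep _ ((DW k).gen i) ρ - ρ‖ ^ 2 with hD2
  have D20 : 0 ≤ D2 := Finset.sum_nonneg fun _ _ => by positivity
  obtain ⟨ρ₀, h0, hinv⟩ := gap_fd (π := kerRep (W k)) kerRep_norm (DW k).rel ρ (D := √D2) fun i =>
    Real.le_sqrt_of_sq_le (Finset.single_le_sum
      (f := fun i => ‖kerRep _ ((DW k).gen i) ρ - ρ‖ ^ 2) (fun _ _ => by positivity) (mem_univ i))
  have hinv' : ∀ i m m', ρ₀ ((DW k).gen i m, (DW k).gen i m') = ρ₀ (m, m') := by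
    intro i m m'
    conv_lhs => rw [← hinv i]
    simp [kerRep_apply]
  set B := √((∑ p, ‖ρ₀ p‖ ^ 2) / (4 * N + 1 : ℕ)) with hB
  have B0 : 0 ≤ B := Real.sqrt_nonneg _
  have hin : ⟪ρ₀, ρ⟫_ℝ ≤ (∑ j, s j) * B := by
    rw [PiLp.inner_apply]
    simp only [Complex.inner, ← Complex.re_sum]
    have e : ∑ p, ρ p * conj (ρ₀ p) =
        ∑ j, s j * ∑ m, ∑ m', conj (ρ₀ (m, m')) * (u j m * conj (u j m')) := by
      simp only [hρ, Finset.mul_sum, Finset.sum_mul]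
      rw [Finset.sum_comm]
      refine Finset.sum_congr rfl fun j _ => ?_
      rw [Fintype.sum_prod_type]
      exact Finset.sum_congr rfl fun _ _ => Finset.sum_congr rfl fun _ _ => by ring
    rw [e, Finset.sum_mul]
    refine (Complex.re_le_norm _).trans (norm_sum_le_of_le _ fun j _ => ?_)
    by_cases h : s j = 0
    · simp [h]
    rw [norm_mul, Complex.norm_real, Real.norm_of_nonneg (s0 j)]
    refine mul_le_mul_of_nonneg_left ?_ (s0 j)
    have := kernel_bound (by omega : 0 < 4 * N + 1) hk ρ₀ hinv' (u j) hz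
      (fun m => by simp only [u, hr, mul_div_assoc]) hz1
    rwa [un j h, mul_one] at this
  have hin2 : ⟪ρ₀, ρ⟫_ℝ ≤ ‖ρ‖ * ‖ρ₀‖ / 2 := by
    refine hin.trans (abs_le_of_sq_le_sq' ?_ (by positivity)).2
    have h1 := sq_sum_le_card_mul_sum_sq (s := (univ : Finset (Fin n))) (f := s)
    rw [Finset.card_univ, Fintype.card_fin, ← hS', ← hρn] at h1
    have h2 : (n : ℝ) ≤ N := by exact_mod_cast hn
    have h3 : B ^ 2 * (4 * N + 1) = ‖ρ₀‖ ^ 2 := by
      rw [hB, Real.sq_sqrt (by positivity), PiLp.norm_sq_eq_of_L2]; push_cast; field_simp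
    rw [mul_pow, div_pow, mul_pow, ← h3]
    have h4 : (∑ j, s j) ^ 2 ≤ N * ‖ρ‖ ^ 2 := h1.trans (by gcongr)
    nlinarith [mul_le_mul_of_nonneg_right h4 (sq_nonneg B), mul_nonneg (sq_nonneg ‖ρ‖) (sq_nonneg B)]
  have h5 : ‖ρ₀ - ρ‖ ^ 2 ≤ 544 ^ 2 * D2 := by
    have := pow_le_pow_left₀ (norm_nonneg _) h0 2
    rwa [mul_pow, Real.sq_sqrt D20] at this
  rw [norm_sub_sq_real] at h5
  have h6 : 3 / 4 * S ≤ 544 ^ 2 * D2 := by nlinarith [sq_nonneg (‖ρ₀‖ - ‖ρ‖ / 2)]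
  have S0 : 0 ≤ S := hρn ▸ sq_nonneg _
  refine (Finset.sum_le_sum fun i _ => hterm i).trans ?_
  simp only [Finset.sum_sub_distrib, ← Finset.sum_div, ← hD2, sum_const, card_univ, card_I,
    nsmul_eq_mul]
  push_cast
  linarith

theorem svd {E ι : Type*} [NormedAddCommGroup E] [InnerProductSpace ℂ E] [FiniteDimensional ℂ E]
    [Fintype ι] (Ξ : ι → E) : ∃ a : OrthonormalBasis (Fin (Module.finrank ℂ E)) ℂ E,
      ∀ j j', j ≠ j' → ∑ m, conj ⟪a j, Ξ m⟫_ℂ * ⟪a j', Ξ m⟫_ℂ = 0 := by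
  let R : E →ₗ[ℂ] E := ∑ m, (innerₛₗ ℂ (Ξ m)).smulRight (Ξ m)
  have hR : ∀ x y, ⟪y, R x⟫_ℂ = ∑ m, ⟪Ξ m, x⟫_ℂ * ⟪y, Ξ m⟫_ℂ := fun x y => by
    simp [R, LinearMap.sum_apply, inner_sum, inner_smul_right]
  have hs : R.IsSymmetric := fun x y => by
    rw [← inner_conj_symm, hR, hR, map_sum]
    exact Finset.sum_congr rfl fun _ _ => by simp [mul_comm]
  refine ⟨hs.eigenvectorBasis rfl, fun j j' h => ?_⟩
  simp only [inner_conj_symm]
  rw [← hR, hs.apply_eigenvectorBasis, inner_smul_right,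
    (hs.eigenvectorBasis rfl).orthonormal.2 h.symm, mul_zero]

theorem fd {H : Type*} [NormedAddCommGroup H] [InnerProductSpace ℂ H] [CompleteSpace H]
    {N k : ℕ} (hk : 2 ^ (4 * N + 1) ≤ k) (v : I → H →L[ℂ] H) (hv : ∀ i, ‖v i‖ ≤ 1)
    (E : Submodule ℂ H) [FiniteDimensional ℂ E] (hE : Module.finrank ℂ E ≤ N) (Ξ : W k → H)
    (hΞ : ∀ m, Ξ m ∈ E) {z : ℂ} (hz : z ≠ 1) (hz1 : ‖z‖ = 1) (hr : ∀ m, Ξ (m + fW k) = z • Ξ m) :
    ∑ i, (∑ m, ⟪Ξ m, v i (Ξ (((DW k).gen i)⁻¹ m))⟫_ℂ).re ≤ (4 - 1 / 2000000) * ∑ m, ‖Ξ m‖ ^ 2 := by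
  obtain ⟨a, ha⟩ := svd fun m => (⟨Ξ m, hΞ m⟩ : E)
  have ho : Orthonormal ℂ fun j => (a j : H) := a.orthonormal.comp_linearIsometry E.subtypeₗᵢ
  have hx : ∀ m, Ξ m = ∑ j, ⟪(a j : H), Ξ m⟫_ℂ • (a j : H) := fun m => by
    have := congrArg Subtype.val (a.sum_repr' ⟨Ξ m, hΞ m⟩)
    simpa using this.symm
  have hb : ∀ (w : H →L[ℂ] H) j', ‖w‖ ≤ 1 → ∑ j, ‖⟪(a j : H), w (a j')⟫_ℂ‖ ^ 2 ≤ 1 := by
    intro w j' hw
    refine (ho.sum_inner_products_le _).trans (pow_le_one₀ (norm_nonneg _) ?_)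
    have := w.le_opNorm (a j')
    rw [ho.1 j', mul_one] at this
    exact this.trans hw
  have := fd_core hk hE (fun j m => ⟪(a j : H), Ξ m⟫_ℂ) ha hz hz1
    (fun j m => by rw [hr, inner_smul_right]) (fun i j j' => ⟪(a j : H), v i (a j')⟫_ℂ)
    (fun i j => by
      have := hb (ContinuousLinearMap.adjoint (v i)) j (by simpa using hv i)
      simpa only [ContinuousLinearMap.adjoint_inner_right, norm_inner_symm] using this)
    (fun i j' => hb _ j' (hv i))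
  convert this using 3 with i _
  · conv_lhs => enter [2, m]; rw [hx m, hx (((DW k).gen i)⁻¹ m)]
    simp only [map_sum, map_smul, sum_inner, inner_sum, inner_smul_left, inner_smul_right,
      Finset.mul_sum]
    rw [Finset.sum_comm]
    conv_rhs => rw [Finset.sum_comm]
    refine Finset.sum_congr rfl fun j _ => ?_
    rw [Finset.sum_comm]
    exact Finset.sum_congr rfl fun _ _ => Finset.sum_congr rfl fun _ _ => by ring
  · rw [Finset.sum_comm]
    refine Finset.sum_congr rfl fun m _ => ?_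
    exact (a.sum_sq_norm_inner_right ⟨Ξ m, hΞ m⟩).symm

end Crest.Agent.KE
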