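import Crest.Agent.KE.Lim
import Crest.Agent.KE.FD
import Crest.Agent.KE.Cuntz
/-! Almost intertwiners: self-improvement, induction step, finite-dimensional obstruction. -/
set_option autoImplicit false
namespace Crest.Agent.KE
open Finset Filter Topology
open scoped InnerProductSpace ComplexConjugate

/-- vector-valued functions on the finite model -/
abbrev XW (k : ℕ) : Type := PiLp 2 fun _ : W k => HH

/-- operator times permutation -/
noncomputable def wop {k : ℕ} (a : HH →L[ℂ] HH) (σ : Equiv.Perm (W k)) : XW k →ₗ[ℂ] XW k where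
  toFun ξ := WithLp.toLp 2 fun m => a (ξ (σ⁻¹ m))
  map_add' x y := by ext1 m; simp
  map_smul' c x := by ext1 m; simp

theorem wop_apply {k : ℕ} (a : HH →L[ℂ] HH) (σ : Equiv.Perm (W k)) (ξ : XW k) (m : W k) :
    wop a σ ξ m = a (ξ (σ⁻¹ m)) := rfl

theorem wop_wop {k : ℕ} (a b : HH →L[ℂ] HH) (σ τ : Equiv.Perm (W k)) (ξ : XW k) :
    wop a σ (wop b τ ξ) = wop (a * b) (σ * τ) ξ := rfl

theorem wop_sub {k : ℕ} (a b : HH →L[ℂ] HH) (σ : Equiv.Perm (W k)) (ξ : XW k) :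
    wop a σ ξ - wop b σ ξ = wop (a - b) σ ξ := rfl

theorem wop_one {k : ℕ} (ξ : XW k) : wop 1 1 ξ = ξ := rfl

theorem wop_norm {k : ℕ} (a : HH →L[ℂ] HH) (σ : Equiv.Perm (W k)) (ξ : XW k) :
    ‖wop a σ ξ‖ ≤ ‖a‖ * ‖ξ‖ := by
  refine (abs_le_of_sq_le_sq' ?_ (by positivity)).2
  rw [mul_pow, PiLp.norm_sq_eq_of_L2, PiLp.norm_sq_eq_of_L2, Finset.mul_sum,
    ← Equiv.sum_comp σ⁻¹ (fun m => ‖a‖ ^ 2 * ‖ξ m‖ ^ 2)]
  refine Finset.sum_le_sum fun m _ => ?_
  rw [← mul_pow]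
  exact pow_le_pow_left₀ (norm_nonneg _) (a.le_opNorm _) 2

theorem wop_le {k : ℕ} {a : HH →L[ℂ] HH} {δ : ℝ} (ha : ‖a‖ ≤ δ) (σ : Equiv.Perm (W k)) (ξ : XW k) :
    ‖wop a σ ξ‖ ≤ δ * ‖ξ‖ :=
  (wop_norm a σ ξ).trans (mul_le_mul_of_nonneg_right ha (norm_nonneg _))

theorem wop_err {k : ℕ} (a b : HH →L[ℂ] HH) (σ : Equiv.Perm (W k)) (ξ : XW k) :
    ‖wop a σ ξ - wop b 1 ξ‖ ^ 2 = ∑ m, ‖a (ξ m) - b (ξ (σ m))‖ ^ 2 := by
  rw [PiLp.norm_sq_eq_of_L2, ← Equiv.sum_comp σ]
  simp only [PiLp.sub_apply, wop_apply, Equiv.Perm.coe_inv, Equiv.symm_apply_apply]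
  rfl

/-- isotypic vectors -/
def Isot {k : ℕ} (ξ : XW k) : Prop := ∀ m, ξ (m + fW k) = chi 1 • ξ m

/-- almost containment of the `k`-th model -/
def Con (u : GG → HH →L[ℂ] HH) (k : ℕ) (ε : ℝ) : Prop :=
  ∃ ξ : XW k, ‖ξ‖ = 1 ∧ Isot ξ ∧ ∀ i, ‖wop (u (gG i)) ((DW k).gen i) ξ - ξ‖ ≤ ε

theorem con_of {u : GG → HH →L[ℂ] HH} {k : ℕ} {c δ ε : ℝ} (ξ : XW k) (hc : 0 < c) (h1 : c ≤ ‖ξ‖)
    (h2 : Isot ξ) (h3 : ∀ i, ‖wop (u (gG i)) ((DW k).gen i) ξ - ξ‖ ≤ δ) (h4 : δ ≤ ε * c) :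
    Con u k ε := by
  have h0 : 0 < ‖ξ‖ := hc.trans_le h1
  have hn : ‖((‖ξ‖ : ℂ))⁻¹‖ = ‖ξ‖⁻¹ := by simp
  refine ⟨((‖ξ‖ : ℂ))⁻¹ • ξ, by rw [norm_smul, hn, inv_mul_cancel₀ h0.ne'], fun m => ?_, fun i => ?_⟩
  · rw [PiLp.smul_apply, PiLp.smul_apply, h2 m, smul_comm]
  · rw [map_smul, ← smul_sub, norm_smul, hn, inv_mul_le_iff₀ h0]
    have : 0 ≤ ε := by
      by_contra h
      nlinarith [(norm_nonneg _).trans (h3 i)]
    nlinarith [h3 i]

/-- asymptotic representations by contractions -/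
structure ARep (ω : Ultrafilter ℕ) (v : ℕ → GG → HH →L[ℂ] HH) : Prop where
  le : ∀ n g, ‖v n g‖ ≤ 1
  mul : ∀ g h, Tendsto (fun n => ‖v n g * v n h - v n (g * h)‖) ω (𝓝 0)
  one : Tendsto (fun n => ‖v n 1 - 1‖) ω (𝓝 0)

theorem con_improve {ω : Ultrafilter ℕ} {v : ℕ → GG → HH →L[ℂ] HH} (hv : ARep ω v) {κ : ℝ}
    (hκ : 0 < κ) : ∀ᶠ n in ω, ∀ k, Con (v n) k (1 / 2176) → Con (v n) k κ := by
  by_contra hcon
  rw [← Ultrafilter.eventually_not] at hcon
  have hch : ∀ n, ∃ (k : ℕ) (ξ : XW k), ‖ξ‖ ≤ 1 ∧ Isot ξ ∧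
      ((¬ ∀ k, Con (v n) k (1 / 2176) → Con (v n) k κ) → ¬ Con (v n) k κ ∧ ‖ξ‖ = 1 ∧
        ∀ i, ‖wop (v n (gG i)) ((DW k).gen i) ξ - ξ‖ ≤ 1 / 2176) := by
    intro n
    by_cases h : ∀ k, Con (v n) k (1 / 2176) → Con (v n) k κ
    · exact ⟨0, 0, by simp, fun m => by simp, fun h' => absurd h h'⟩
    · push Not at h
      obtain ⟨k, ⟨ξ, h1, h2, h3⟩, h4⟩ := h
      exact ⟨k, ξ, h1.le, h2, fun _ => ⟨h4, h1, h3⟩⟩
  choose k ξ h1 h2 h3 using hch
  obtain ⟨c, hc⟩ := self_improve rel_gK ω (fun n => XW (k n))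
    (fun n h => wop (v n h.1) (h.2 (k n)).1)
    (fun n h ξ => by simpa using wop_le (hv.le n h.1) _ ξ) ξ h1
    (by filter_upwards [hcon] with n hn using (h3 n hn).2)
    (fun a b => squeeze_zero (fun _ => norm_nonneg _) (fun n => by
      rw [wop_wop]
      exact (wop_norm (v n a.1 * v n b.1 - v n (a.1 * b.1)) _ _).trans
        (mul_le_of_le_one_right (norm_nonneg _) (h1 n))) (hv.mul a.1 b.1))
    (squeeze_zero (fun _ => norm_nonneg _) (fun n =>
      (wop_norm (v n 1 - 1) 1 (ξ n)).trans (mul_le_of_le_one_right (norm_nonneg _) (h1 n))) hv.one)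
    (κ := κ / 2) (by positivity)
  obtain ⟨n, hn1, hn2, hn3⟩ := (hcon.and hc).exists
  refine (h3 n hn1).1 (con_of _ (by norm_num) hn2 (fun m => ?_) hn3 (by linarith))
  simp only [Finsupp.sum, WithLp.ofLp_sum, Finset.sum_apply, PiLp.smul_apply, wop_apply,
    Finset.smul_sum]
  refine Finset.sum_congr rfl fun h _ => ?_
  have := CW_add (h.2 (k n))⁻¹ m
  simp only [Subgroup.coe_inv] at this
  rw [this, h2 n, map_smul, smul_comm]

theorem sum_W_succ {k : ℕ} (f : W (k + 1) → ℝ) :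
    ∑ m, f m = ∑ a : F, ∑ m : W k, f (Fin.cons a m) := by
  rw [← Fintype.sum_prod_type']
  exact (Fintype.sum_equiv (Fin.consEquiv fun _ => F) _ _ fun _ => rfl).symm

theorem con_step {ω : Ultrafilter ℕ} {v : ℕ → GG → HH →L[ℂ] HH} (hv : ARep ω v) {κ : ℝ}
    (hκ : 0 < κ) (hκ' : κ ≤ 1 / 217600) :
    ∀ᶠ n in ω, ∀ k, Con (v n) k κ → Con (v n) (k + 1) (1 / 2176) := by
  have hm : ∀ g h, ∀ᶠ n in ω, ‖v n g * v n h - v n (g * h)‖ < κ := fun g h =>
    (hv.mul g h).eventually_lt_const hκ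
  filter_upwards [hv.one.eventually_lt_const hκ,
    eventually_all.mpr fun p : I × F => hm (gG p.1) (gG none ^ p.2.val * sG),
    eventually_all.mpr fun p : F × F × I => hm (gG none ^ p.1.val * sG) (gG none ^ p.2.1.val * gG p.2.2),
    eventually_all.mpr fun p : Fin 17 × I => hm (gG none) (gG none ^ p.1.val * gG p.2),
    eventually_all.mpr fun a : F => hm (gG none ^ a.val * sG)⁻¹ (gG none ^ a.val * sG)]
    with n e0 e1 e2 e3 e4
  rintro k ⟨ξ, hξ, hiso, herr⟩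
  set u := v n with hu
  have hle : ∀ g, ‖u g‖ ≤ 1 := hv.le n
  let ξ' : XW (k + 1) := WithLp.toLp 2 fun m => u (gG none ^ (m 0).val * sG) (ξ (Fin.tail m))
  have hξ' : ∀ a m, ξ' (Fin.cons a m) = u (gG none ^ a.val * sG) (ξ m) := fun a m => by simp [ξ']
  have hw : ∀ i (j : ℕ), j < 17 →
      ‖wop (u (gG none ^ j * gG i)) ((DW k).gen none ^ j * (DW k).gen i) ξ - ξ‖ ≤ (2 * j + 1) * κ := by
    intro i j
    induction j with
    | zero => intro _; simpa using herr i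
    | succ j ih =>
      intro hj
      have h1 := ih (by omega)
      have h2 := wop_le (e3 (⟨j, by omega⟩, i)).le ((DW k).gen none ^ (j + 1) * (DW k).gen i) ξ
      have h3 := wop_le (hle (gG none)) ((DW k).gen none)
        (wop (u (gG none ^ j * gG i)) ((DW k).gen none ^ j * (DW k).gen i) ξ - ξ)
      rw [map_sub, wop_wop, ← mul_assoc, ← pow_succ'] at h3
      rw [← wop_sub, norm_sub_rev, ← mul_assoc, ← pow_succ', hξ] at h2
      have h4 := norm_sub_le_norm_sub_add_norm_sub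
        (wop (u (gG none ^ (j + 1) * gG i)) ((DW k).gen none ^ (j + 1) * (DW k).gen i) ξ)
        (wop (u (gG none) * u (gG none ^ j * gG i)) ((DW k).gen none ^ (j + 1) * (DW k).gen i) ξ) ξ
      have h5 := norm_sub_le_norm_sub_add_norm_sub
        (wop (u (gG none) * u (gG none ^ j * gG i)) ((DW k).gen none ^ (j + 1) * (DW k).gen i) ξ)
        (wop (u (gG none)) ((DW k).gen none) ξ) ξ
      push_cast
      linarith [herr none]
  refine con_of (c := 2) (δ := 5 * (35 * κ)) ξ' (by norm_num) ?_ (fun m => ?_) (fun i => ?_)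
    (by linarith)
  · refine (abs_le_of_sq_le_sq' ?_ (norm_nonneg _)).2
    rw [PiLp.norm_sq_eq_of_L2, sum_W_succ]
    have : ∀ a : F, (1 / 2 : ℝ) ^ 2 ≤ ∑ m, ‖ξ' (Fin.cons a m)‖ ^ 2 := by
      intro a
      have h1 : ∑ m, ‖ξ' (Fin.cons a m)‖ ^ 2 = ‖wop (u (gG none ^ a.val * sG)) 1 ξ‖ ^ 2 := by
        rw [PiLp.norm_sq_eq_of_L2]; simp only [hξ', wop_apply, inv_one, Equiv.Perm.one_apply]
      rw [h1]
      refine pow_le_pow_left₀ (by norm_num) ?_ 2
      have h2 := wop_le (hle (gG none ^ a.val * sG)⁻¹) 1 (wop (u (gG none ^ a.val * sG)) 1 ξ)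
      have h3 := wop_le (e4 a).le (1 : Equiv.Perm (W k)) ξ
      have h4 := wop_le e0.le (1 : Equiv.Perm (W k)) ξ
      rw [wop_wop, mul_one] at h2
      rw [← wop_sub, inv_mul_cancel] at h3
      rw [← wop_sub, wop_one] at h4
      have h5 := norm_sub_le_norm_sub_add_norm_sub
        (wop (u (gG none ^ a.val * sG)⁻¹ * u (gG none ^ a.val * sG)) 1 ξ) (wop (u 1) 1 ξ) ξ
      have h6 := norm_sub_norm_le ξ (wop (u (gG none ^ a.val * sG)⁻¹ * u (gG none ^ a.val * sG)) 1 ξ)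
      rw [norm_sub_rev] at h6
      rw [hξ] at h3 h4 h6
      linarith
    refine le_trans ?_ (Finset.sum_le_sum fun a _ => this a)
    simp [ZMod.card]; norm_num
  · induction m using Fin.consCases with
    | cons a m => rw [cons_add_fW, hξ', hξ', hiso, map_smul]
  · refine (abs_le_of_sq_le_sq' ?_ (by positivity)).2
    have h0 := wop_err (u (gG i)) 1 ((DW (k + 1)).gen i) ξ'
    rw [wop_one] at h0
    rw [h0, sum_W_succ]
    have : ∀ a : F, ∑ m, ‖u (gG i) (ξ' (Fin.cons a m)) -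
        (1 : HH →L[ℂ] HH) (ξ' ((DW (k + 1)).gen i (Fin.cons a m)))‖ ^ 2 ≤ (35 * κ) ^ 2 := by
      intro a
      rcases i with _ | r
      · have h1 := wop_err (u (gG none) * u (gG none ^ a.val * sG)) (u (gG none ^ (a + 1).val * sG))
          (1 : Equiv.Perm (W k)) ξ
        simp only [gen_none_cons, hξ', ContinuousLinearMap.one_apply]
        refine le_trans (le_of_eq h1.symm) (pow_le_pow_left₀ (norm_nonneg _) ?_ 2)
        have h2 := wop_le (e1 (none, a)).le (1 : Equiv.Perm (W k)) ξ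
        rw [wop_sub, add_comm a, pow_val_add (rel_gG.pow none), ZMod.val_one, pow_one, mul_assoc]
        rw [hξ] at h2
        linarith
      · have h1 := wop_err (u (gG (some r)) * u (gG none ^ a.val * sG)) (u (gG none ^ a.val * sG))
          ((DW k).gen none ^ (if r = 0 then a.val else 0) * (DW k).gen (some (r - 1))) ξ
        simp only [gen_some_cons, hξ', ContinuousLinearMap.one_apply]
        refine le_trans (le_of_eq h1.symm) (pow_le_pow_left₀ (norm_nonneg _) ?_ 2)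
        have hb : (if r = 0 then a.val else 0) = (if r = 0 then a else 0).val := by
          split_ifs <;> simp
        have hb' : (if r = 0 then a.val else 0) < 17 := by rw [hb]; exact ZMod.val_lt _
        have h2 := hw (some (r - 1)) _ hb'
        have h3 := e2 (a, if r = 0 then a else 0, some (r - 1))
        have h4 := e1 (some r, a)
        simp only [← hb] at h3 h4
        rw [← sG_ident] at h3
        have hb2 : ((if r = 0 then a.val else 0 : ℕ) : ℝ) ≤ 16 := by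
          exact_mod_cast Nat.le_of_lt_succ hb'
        set b := (if r = 0 then a.val else 0)
        set τ := (DW k).gen none ^ b * (DW k).gen (some (r - 1))
        set h := gG none ^ b * gG (some (r - 1))
        set B := u (gG none ^ a.val * sG)
        have h5 := wop_le h3.le τ ξ
        have h6 := wop_le h4.le τ ξ
        have h7 := wop_le (hle (gG none ^ a.val * sG)) 1 (wop (u h) τ ξ - ξ)
        rw [map_sub, wop_wop, one_mul] at h7
        rw [← wop_sub, hξ] at h5 h6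
        have h8 := norm_sub_le_norm_sub_add_norm_sub (wop (u (gG (some r)) * B) τ ξ)
          (wop (u (gG (some r) * (gG none ^ a.val * sG))) τ ξ) (wop B 1 ξ)
        have h9 := norm_sub_le_norm_sub_add_norm_sub
          (wop (u (gG (some r) * (gG none ^ a.val * sG))) τ ξ) (wop (B * u h) τ ξ) (wop B 1 ξ)
        rw [norm_sub_rev] at h5
        nlinarith
    refine (Finset.sum_le_sum fun a _ => this a).trans ?_
    simp only [sum_const, card_univ, ZMod.card, nsmul_eq_mul]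
    push_cast
    nlinarith [sq_nonneg κ]

theorem onb_dec {H β : Type*} [NormedAddCommGroup H] [InnerProductSpace ℂ H] [Finite β]
    (h : β → H) : ∃ (m : ℕ) (b : Fin m → H),
      ∀ p q, ⟪h p, h q⟫_ℂ = ∑ j, ⟪h p, b j⟫_ℂ * ⟪b j, h q⟫_ℂ := by
  haveI : FiniteDimensional ℂ (Submodule.span ℂ (Set.range h)) :=
    FiniteDimensional.span_of_finite ℂ (Set.finite_range h)
  let b := stdOrthonormalBasis ℂ (Submodule.span ℂ (Set.range h))
  exact ⟨_, fun j => b j, fun p q => (b.sum_inner_mul_inner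
    ⟨h p, Submodule.subset_span ⟨p, rfl⟩⟩ ⟨h q, Submodule.subset_span ⟨q, rfl⟩⟩).symm⟩

theorem not_con {u : GG → HH →L[ℂ] HH} (hu : ∀ g, u g ∈ Gen SS) (hle : ∀ g, ‖u g‖ ≤ 1) :
    ¬ ∀ k, Con u k (1 / 20000000) := by
  intro hcon
  obtain ⟨L, hL0, hL⟩ := ((eventually_gt_atTop 0).and (eventually_all.mpr fun i : I =>
    cpap (hu (gG i)) (ε := 1 / 20000000) (by norm_num))).exists
  obtain ⟨k, hk⟩ : ∃ k, 2 ^ (4 * (WW L).card + 1) ≤ k := ⟨_, le_rfl⟩
  obtain ⟨ξ, hξ, hiso, herr⟩ := hcon k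
  obtain ⟨M, b, hb⟩ := onb_dec fun p : WW L × W k => star (tw SS p.1) (ξ p.2)
  let Ξ : Fin M → W k → HH := fun j m => ∑ ν : WW L, ⟪b j, star (tw SS ν) (ξ m)⟫_ℂ • ee ν
  have key : ∀ (a : HH →L[ℂ] HH) m m', ∑ j, ⟪Ξ j m, a (Ξ j m')⟫_ℂ = L * ⟪ξ m, Th SS L a (ξ m')⟫_ℂ := by
    intro a m m'
    have hL' : (L : ℂ) ≠ 0 := by exact_mod_cast hL0.ne'
    rw [Th_apply, ContinuousLinearMap.smul_apply, inner_smul_right, mul_inv_cancel_left₀ hL',
      EE_apply, ← Finset.sum_coe_sort (WW L)]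
    simp only [← Finset.sum_coe_sort (WW L), ContinuousLinearMap.sum_apply, inner_sum,
      ContinuousLinearMap.smul_apply, inner_smul_right, ContinuousLinearMap.mul_apply, Ξ, map_sum,
      map_smul, sum_inner, inner_smul_left, inner_conj_symm, Finset.mul_sum]
    rw [Finset.sum_comm]
    conv_rhs => rw [Finset.sum_comm]
    refine Finset.sum_congr rfl fun ν _ => ?_
    rw [Finset.sum_comm]
    refine Finset.sum_congr rfl fun μ _ => ?_
    have := hb (μ, m) (ν, m')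
    simp only at this
    rw [← ContinuousLinearMap.adjoint_inner_left (tw SS μ), ← ContinuousLinearMap.star_eq_adjoint,
      this, Finset.mul_sum]
    exact Finset.sum_congr rfl fun _ _ => by ring
  haveI : FiniteDimensional ℂ (Submodule.span ℂ (Set.range fun ν : WW L => ee ν)) :=
    FiniteDimensional.span_of_finite ℂ (Set.finite_range _)
  have hfd := fun j => fd (N := (WW L).card) (k := k) hk (fun i => u (gG i)) (fun i => hle _)
    (Submodule.span ℂ (Set.range fun ν : WW L => ee ν))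
    ((finrank_range_le_card _).trans (by simp)) (Ξ j)
    (fun m => Submodule.sum_mem _ fun ν _ => Submodule.smul_mem _ _ (Submodule.subset_span ⟨ν, rfl⟩))
    chi_one_ne (norm_chi 1) (fun m => by
      simp only [Ξ, hiso m, map_smul, inner_smul_right, Finset.smul_sum, smul_smul])
  have hsum := Finset.sum_le_sum fun j (_ : j ∈ univ) => hfd j
  have e1 : ∑ j, ∑ m, ‖Ξ j m‖ ^ 2 = L := by
    rw [Finset.sum_comm]
    have : ∀ m, ∑ j, ‖Ξ j m‖ ^ 2 = L * ‖ξ m‖ ^ 2 := fun m => by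
      have := key 1 m m
      rw [Th_one crel_SS hL0] at this
      simp only [ContinuousLinearMap.one_apply, inner_self_eq_norm_sq_to_K] at this
      apply Complex.ofReal_injective
      push_cast
      exact this
    simp only [this, ← Finset.mul_sum, ← PiLp.norm_sq_eq_of_L2, hξ]; simp
  have e2 : ∑ j, ∑ i, (∑ m, ⟪Ξ j m, u (gG i) (Ξ j (((DW k).gen i)⁻¹ m))⟫_ℂ).re =
      L * ∑ i, (⟪ξ, wop (Th SS L (u (gG i))) ((DW k).gen i) ξ⟫_ℂ).re := by
    rw [Finset.sum_comm, Finset.mul_sum]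
    refine Finset.sum_congr rfl fun i _ => ?_
    rw [← Complex.re_sum, Finset.sum_comm, PiLp.inner_apply]
    simp only [key, wop_apply, ← Finset.mul_sum]
    simp
  have e3 : ∀ i, 1 - 2 / 20000000 ≤ (⟪ξ, wop (Th SS L (u (gG i))) ((DW k).gen i) ξ⟫_ℂ).re := by
    intro i
    have h1 := wop_le (hL i) ((DW k).gen i) ξ
    rw [← wop_sub, hξ] at h1
    have h2 := norm_sub_le_norm_sub_add_norm_sub (wop (Th SS L (u (gG i))) ((DW k).gen i) ξ)
      (wop (u (gG i)) ((DW k).gen i) ξ) ξ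
    have h3 := norm_inner_le_norm (𝕜 := ℂ) ξ (wop (Th SS L (u (gG i))) ((DW k).gen i) ξ - ξ)
    have h4 := (abs_le.mp ((Complex.abs_re_le_norm _).trans h3)).1
    rw [inner_sub_right, inner_self_eq_norm_sq_to_K, hξ] at h4
    simp only [Complex.sub_re, Complex.coe_algebraMap, Complex.ofReal_one, one_pow, Complex.one_re,
      one_mul] at h4
    linarith [herr i]
  rw [← Finset.mul_sum, e1, e2] at hsum
  have e4 := Finset.sum_le_sum fun i (_ : i ∈ univ) => e3 i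
  simp only [sum_const, card_univ, card_I, nsmul_eq_mul] at e4
  have hL' : (0 : ℝ) < L := by exact_mod_cast hL0
  push_cast at e4
  nlinarith

end Crest.Agent.KE
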