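import Crest.Agent.KE.Grp
/-! Invariant kernels on the finite models have small norm on the isotypic part. -/
set_option autoImplicit false
namespace Crest.Agent.KE
open Finset
open scoped ComplexConjugate

section
variable {A : Type} [AddCommGroup A] [Fintype A]

/-- Fourier transform -/
noncomputable def hat (h : A → ℂ) (ψ : AddChar A ℂ) : ℂ := ∑ m, ψ m * h m

theorem hat_triple (Ψ r : A → ℂ) :
    ∑ ψ : AddChar A ℂ, hat Ψ ψ * (hat r ψ * conj (hat r ψ)) =
      Fintype.card A * ∑ m, ∑ m', Ψ (m' - m) * (r m * conj (r m')) := by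
  classical
  have e : ∀ ψ : AddChar A ℂ, hat Ψ ψ * (hat r ψ * conj (hat r ψ)) =
      ∑ m, ∑ m', ∑ d, ψ (d - (m' - m)) * (Ψ d * (r m * conj (r m'))) := by
    intro ψ
    simp only [hat, map_sum, map_mul, Finset.mul_sum, Finset.sum_mul, ← AddChar.map_neg_eq_conj]
    rw [Finset.sum_comm]
    refine Finset.sum_congr rfl fun m _ => Finset.sum_congr rfl fun m' _ =>
      Finset.sum_congr rfl fun d _ => ?_
    rw [show d - (m' - m) = d + m + -m' by abel, AddChar.map_add_eq_mul, AddChar.map_add_eq_mul]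
    ring
  simp only [e]
  rw [Finset.sum_comm, Finset.mul_sum]
  refine Finset.sum_congr rfl fun m _ => ?_
  rw [Finset.sum_comm, Finset.mul_sum]
  refine Finset.sum_congr rfl fun m' _ => ?_
  rw [Finset.sum_comm]
  simp only [← Finset.sum_mul, AddChar.sum_apply_eq_ite, sub_eq_zero, ite_mul, zero_mul,
    Finset.sum_ite_eq', Finset.mem_univ, if_true]

theorem parseval (r : A → ℂ) :
    ∑ ψ : AddChar A ℂ, ‖hat r ψ‖ ^ 2 = Fintype.card A * ∑ m, ‖r m‖ ^ 2 := by
  classical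
  have h := hat_triple (Pi.single 0 1) r
  have h1 : ∀ ψ : AddChar A ℂ, hat (Pi.single 0 1) ψ = 1 := fun ψ => by simp [hat, Pi.single_apply]
  simp only [h1, one_mul, Pi.single_apply, sub_eq_zero, ite_mul, zero_mul, Finset.sum_ite_eq',
    Finset.mem_univ, if_true, Complex.mul_conj'] at h
  exact_mod_cast h

theorem conv_bound (Ψ r : A → ℂ) {B : ℝ} (hB : ∀ ψ, hat r ψ ≠ 0 → ‖hat Ψ ψ‖ ≤ B) :
    ‖∑ m, ∑ m', Ψ (m' - m) * (r m * conj (r m'))‖ ≤ B * ∑ m, ‖r m‖ ^ 2 := by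
  have hc : (0 : ℝ) < Fintype.card A := by exact_mod_cast Fintype.card_pos
  refine le_of_mul_le_mul_left ?_ hc
  have h := congrArg norm (hat_triple Ψ r)
  rw [norm_mul, Complex.norm_natCast] at h
  rw [← h, mul_left_comm, ← parseval, Finset.mul_sum]
  refine norm_sum_le_of_le _ fun ψ _ => ?_
  by_cases h0 : hat r ψ = 0
  · simp [h0]
  · rw [norm_mul, norm_mul, Complex.norm_conj, ← sq]
    exact mul_le_mul_of_nonneg_right (hB ψ h0) (by positivity)

end

/-- the standard character -/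
noncomputable def chi : AddChar F ℂ := ZMod.stdAddChar

theorem chi_one_ne : chi 1 ≠ 1 := fun h => by
  have : (1 : F) = 0 := ZMod.injective_stdAddChar (h.trans (AddChar.map_zero_eq_one _).symm)
  exact one_ne_zero this

theorem norm_chi (a : F) : ‖chi a‖ = 1 := chi.norm_apply a

theorem inv_EW {k : ℕ} (Ψ : W k → ℂ) (h : ∀ r m, Ψ (m + EW k r 1 m) = Ψ m) (j : ℕ) :
    ∀ r m, Ψ (m + EW k r (2 ^ j) m) = Ψ m := by
  induction j with
  | zero => simpa using h
  | succ j ih =>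
    intro r m
    have h3 : ∀ x : ZMod 3, x = 2 ^ j → ∀ r : ZMod 3, r ≠ r + x ∧ r ≠ r + x + x := by
      intro x hx
      have : x ≠ 0 := by rw [hx]; exact pow_ne_zero _ (by decide)
      clear hx; revert x; decide
    obtain ⟨h1, h2⟩ := h3 ((2 ^ j : ℕ) : ZMod 3) (by push_cast; rfl) r
    obtain ⟨h4, -⟩ := h3 ((2 ^ j : ℕ) : ZMod 3) (by push_cast; rfl) (r + (2 ^ j : ℕ))
    set ℓ := 2 ^ j with hℓ
    have e1 := ih r ((m + EW k r (ℓ + ℓ) m) + EW k (r + ℓ) ℓ (m + EW k r (ℓ + ℓ) m))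
    have e2 := ih (r + ℓ) (m + EW k r (ℓ + ℓ) m)
    have e3 := ih (r + ℓ) (m + EW k r ℓ m)
    have e4 := ih r m
    have hAB : EW k (r + ℓ) ℓ (EW k r ℓ m) = EW k r (ℓ + ℓ) m := by rw [EW_EW, if_pos rfl]
    have hAA : ∀ m, EW k (r + ℓ) ℓ (EW k (r + ℓ) ℓ m) = 0 := fun m => by rw [EW_EW, if_neg h4]
    have hBA : ∀ m, EW k r ℓ (EW k (r + ℓ) ℓ m) = 0 := fun m => by rw [EW_EW, if_neg h2]
    rw [pow_succ, mul_two, ← e2, ← e1, ← e4, ← e3]
    congr 1
    rw [← hAB]
    simp only [map_add, hAA, hBA, map_zero]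
    abel

theorem hat_small {N k : ℕ} (hk : 2 ^ N ≤ k) (Ψ : W k → ℂ) (h : ∀ r m, Ψ (m + EW k r 1 m) = Ψ m)
    (ψ : AddChar (W k) ℂ) (hψ : ψ (fW k) ≠ 1) :
    N * ‖hat Ψ ψ‖ ^ 2 ≤ Fintype.card (W k) * ∑ m, ‖Ψ m‖ ^ 2 := by
  classical
  let E : Fin N → W k →ₗ[F] W k := fun j => EW k ((k - 2 ^ j.val : ℕ) : ZMod 3) (2 ^ j.val)
  have hEE : ∀ j m, E j (E j m) = 0 := fun j m => by
    have : ((2 ^ j.val : ℕ) : ZMod 3) ≠ 0 := by push_cast; exact pow_ne_zero _ (by decide)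
    simp only [E]; rw [EW_EW, if_neg (by simpa using this)]
  let φ : Fin N → AddChar (W k) ℂ := fun j =>
    ψ.compAddMonoidHom (AddMonoidHom.id _ + (E j).toAddMonoidHom)
  have hφ : ∀ j m, φ j m = ψ (m + E j m) := fun _ _ => rfl
  have h1 : ∀ j, hat Ψ (φ j) = hat Ψ ψ := fun j =>
    Fintype.sum_equiv (un (E j) (hEE j)) _ _ fun m => by
      rw [hφ, un_apply]; simp only [E]; rw [inv_EW Ψ h]
  have hlt : ∀ j j' : Fin N, j < j' → φ j ≠ φ j' := by
    intro j j' hjj he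
    have hj : 2 ^ j.val < 2 ^ j'.val := Nat.pow_lt_pow_right (by norm_num) hjj
    have hj' : 2 ^ j'.val < 2 ^ N := Nat.pow_lt_pow_right (by norm_num) j'.2
    have hp : k - 2 ^ j.val < k + 1 := Nat.lt_succ_of_le (Nat.sub_le _ _)
    have := DFunLike.congr_fun he (Pi.single ⟨k - 2 ^ j.val, hp⟩ 1)
    rw [hφ, hφ] at this
    simp only [E, EW_single] at this
    rw [dif_pos ⟨by omega, trivial⟩, dif_neg (fun h => by have := h.1; omega), add_zero,
      AddChar.map_add_eq_mul] at this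
    have h0 : ψ (Pi.single ⟨k - 2 ^ j.val, hp⟩ 1) ≠ 0 := by
      rw [← norm_ne_zero_iff, ψ.norm_apply]; exact one_ne_zero
    refine hψ ?_
    rw [← (mul_eq_left₀ h0).mp this, fW]
    congr 2
    exact Fin.ext (by simp; omega)
  have hinj : Function.Injective φ := fun j j' he => by
    rcases lt_trichotomy j j' with h | h | h
    exacts [absurd he (hlt _ _ h), h, absurd he.symm (hlt _ _ h)]
  rw [← parseval]
  calc (N : ℝ) * ‖hat Ψ ψ‖ ^ 2 = ∑ j : Fin N, ‖hat Ψ (φ j)‖ ^ 2 := by simp [h1]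
    _ = ∑ ψ' ∈ univ.map ⟨φ, hinj⟩, ‖hat Ψ ψ'‖ ^ 2 := by rw [Finset.sum_map]; rfl
    _ ≤ _ := Finset.sum_le_sum_of_subset_of_nonneg (Finset.subset_univ _) fun _ _ _ => by positivity

theorem kernel_conv {k : ℕ} (ρ : W k × W k → ℂ)
    (h : ∀ i m m', ρ ((DW k).gen i m, (DW k).gen i m') = ρ (m, m')) (m m' : W k) :
    ρ (m, m') = ρ (0, m' - m) := by
  let T : AddSubgroup (W k) :=
    { carrier := {t | ∀ m m', ρ (m + t, m' + t) = ρ (m, m')}
      zero_mem' := fun m m' => by simp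
      add_mem' := fun {a b} ha hb m m' => by rw [← add_assoc, ← add_assoc, hb, ha]
      neg_mem' := fun {a} ha m m' => by rw [← ha]; simp }
  have hN : ∀ r, ∀ t ∈ T, EW k r 1 t ∈ T := by
    intro r t ht
    have : t + EW k r 1 t ∈ T := by
      intro m m'
      obtain ⟨n, rfl⟩ := ((DW k).gen (some r)).surjective m
      obtain ⟨n', rfl⟩ := ((DW k).gen (some r)).surjective m'
      rw [h, ← ht n n', ← h (some r) (n + t)]
      simp only [AD.gen, DW, un_apply, map_add]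
      congr 2 <;> abel
    simpa using T.sub_mem this ht
  have hf : ∀ (i : ℕ) (hi : i < k + 1), (Pi.single ⟨i, hi⟩ 1 : W k) ∈ T := by
    intro i
    induction i with
    | zero => intro _ m m'; exact h none m m'
    | succ i ih =>
      intro hi
      have := hN (i : ZMod 3) _ (ih (by omega))
      rwa [EW_single, dif_pos ⟨hi, rfl⟩] at this
  have hall : ∀ t, t ∈ T := fun t => by
    rw [← Finset.univ_sum_single t]
    refine T.sum_mem fun i _ => ?_
    have : (Pi.single i (t i) : W k) = (t i).val • (Pi.single i 1 : W k) := by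
      rw [← Pi.single_smul']; simp
    rw [this]
    exact T.nsmul_mem (hf i.val i.2) _
  rw [← hall m 0 (m' - m)]; simp

theorem kernel_bound {N k : ℕ} (hN : 0 < N) (hk : 2 ^ N ≤ k) (ρ : W k × W k → ℂ)
    (h : ∀ i m m', ρ ((DW k).gen i m, (DW k).gen i m') = ρ (m, m')) (r : W k → ℂ) {z : ℂ}
    (hz : z ≠ 1) (hr : ∀ m, r (m + fW k) = z * r m) (hz1 : ‖z‖ = 1) :
    ‖∑ m, ∑ m', conj (ρ (m, m')) * (r m * conj (r m'))‖ ≤
      √((∑ p, ‖ρ p‖ ^ 2) / N) * ∑ m, ‖r m‖ ^ 2 := by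
  have hN' : (0 : ℝ) < N := by exact_mod_cast hN
  have := conv_bound (fun d => conj (ρ (0, d))) r (B := √((∑ p, ‖ρ p‖ ^ 2) / N)) fun ψ hψ => by
    refine Real.le_sqrt_of_sq_le ?_
    rw [le_div_iff₀ hN', mul_comm]
    refine (hat_small hk _ (fun r m => ?_) ψ fun h1 => hψ ?_).trans (le_of_eq ?_)
    · have := h (some r) 0 m
      simp only [AD.gen, DW, un_apply, map_zero, add_zero] at this
      rw [this]
    · have : hat r ψ = z * hat r ψ := by
        rw [hat, Finset.mul_sum]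
        refine (Fintype.sum_equiv (tr (fW k)) _ _ fun m => ?_).symm
        rw [tr_apply, AddChar.map_add_eq_mul, h1, hr]; ring
      exact (mul_left_eq_self₀.mp this.symm).resolve_left hz
    · rw [Fintype.sum_prod_type]
      rw [Finset.sum_congr rfl (g := fun _ => ∑ d, ‖ρ (0, d)‖ ^ 2) fun m _ =>
        Fintype.sum_equiv (tr (-m)) _ _ fun m' => by rw [kernel_conv ρ h, tr_apply, sub_eq_add_neg]]
      simp
  simpa only [← kernel_conv ρ h] using this

end Crest.Agent.KE
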