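import Mathlib
/-! Spectral gap (property (T)) for four order-17 elements with Heisenberg pairs. -/
set_option autoImplicit false
namespace Crest.Agent.KE
open Finset
open scoped RealInnerProductSpace

/-- the field with 17 elements -/
abbrev F : Type := ZMod 17
/-- index set of the generators -/
abbrev I : Type := Option (ZMod 3)

instance : Fact (Nat.Prime 17) := ⟨by norm_num⟩

/-- the relations -/
structure Rel {K : Type*} [Group K] (g : I → K) : Prop where
  pow : ∀ i, g i ^ 17 = 1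
  heis : ∀ i j, ∃ z : K, z ^ 17 = 1 ∧ Commute z (g i) ∧ Commute z (g j) ∧ g j * g i = g i * g j * z

theorem pow_val_add {K : Type*} [Monoid K] {x : K} (hx : x ^ 17 = 1) (a b : F) :
    x ^ (a + b).val = x ^ a.val * x ^ b.val := by
  rw [ZMod.val_add, ← pow_add, ← pow_eq_pow_mod _ hx]

theorem pow_val_mul {K : Type*} [Monoid K] {x : K} (hx : x ^ 17 = 1) (a b : F) :
    x ^ (a * b).val = x ^ (a.val * b.val) := by
  rw [ZMod.val_mul, ← pow_eq_pow_mod _ hx]

theorem heis_pow {K : Type*} [Group K] {x y z : K} (hx : Commute z x) (hy : Commute z y)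
    (h : y * x = x * y * z) (a b : ℕ) : y ^ b * x ^ a = x ^ a * y ^ b * z ^ (a * b) := by
  have h1 : ∀ a : ℕ, y * x ^ a = x ^ a * y * z ^ a := by
    intro a
    induction a with
    | zero => simp
    | succ a ih =>
      rw [pow_succ, ← mul_assoc, ih, mul_assoc, (hx.pow_left a).eq, ← mul_assoc, mul_assoc _ y x, h,
        pow_succ' z]
      simp only [mul_assoc]
  induction b with
  | zero => simp
  | succ b ih =>
    rw [pow_succ', mul_assoc, ih, ← mul_assoc, ← mul_assoc, h1, mul_assoc _ (z ^ a),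
      ((hy.pow_left a).pow_right b).eq, Nat.mul_succ, add_comm, pow_add]
    simp only [mul_assoc]

section
variable {K V : Type*} [Group K] [SeminormedAddCommGroup V] [InnerProductSpace ℝ V]
  (π : K →* Module.End ℝ V)

/-- average over the cyclic group -/
noncomputable def avg (g : K) : Module.End ℝ V := (1 / 17 : ℝ) • ∑ a : F, π (g ^ a.val)

theorem avg_apply (g : K) (v : V) : avg π g v = (1 / 17 : ℝ) • ∑ a : F, π (g ^ a.val) v := by
  simp [avg, LinearMap.sum_apply]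

theorem pow_mul_avg {g : K} (hg : g ^ 17 = 1) (b : F) (v : V) :
    π (g ^ b.val) (avg π g v) = avg π g v := by
  rw [avg_apply, map_smul, map_sum]
  congr 1
  refine Fintype.sum_equiv (Equiv.addLeft b) _ _ fun a => ?_
  rw [Equiv.coe_addLeft, pow_val_add hg, map_mul]; rfl

theorem mul_avg {g : K} (hg : g ^ 17 = 1) (v : V) : π g (avg π g v) = avg π g v := by
  have := pow_mul_avg π hg 1 v
  rwa [ZMod.val_one, pow_one] at this

theorem pow_fix {g : K} {u : V} (hu : π g u = u) (n : ℕ) : π (g ^ n) u = u := by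
  induction n with
  | zero => simp
  | succ n ih => rw [pow_succ, map_mul, Module.End.mul_apply, hu, ih]

theorem avg_fix {g : K} {u : V} (hu : π g u = u) : avg π g u = u := by
  rw [avg_apply, Finset.sum_congr rfl fun a _ => pow_fix π hu _]
  simp only [sum_const, card_univ, ZMod.card]
  rw [← Nat.cast_smul_eq_nsmul ℝ, smul_smul]; norm_num

theorem comm_avg {g h : K} (hc : Commute h g) (v : V) : π h (avg π g v) = avg π g (π h v) := by
  rw [avg_apply, avg_apply, map_smul, map_sum]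
  congr 1
  refine Finset.sum_congr rfl fun a _ => ?_
  rw [← Module.End.mul_apply, ← map_mul, (hc.pow_right _).eq, map_mul]; rfl

theorem avg_comm_avg {g h : K} (hc : Commute h g) (v : V) :
    avg π h (avg π g v) = avg π g (avg π h v) := by
  rw [avg_apply π h, avg_apply π h, map_smul, map_sum]
  congr 1
  exact Finset.sum_congr rfl fun a _ => comm_avg π (hc.pow_left _) v

variable {π} (hπ : ∀ g v, ‖π g v‖ = ‖v‖)
include hπ

theorem inner_pi (g : K) (u v : V) : ⟪π g u, π g v⟫ = ⟪u, v⟫ := by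
  rw [real_inner_eq_norm_add_mul_self_sub_norm_mul_self_sub_norm_mul_self_div_two,
    real_inner_eq_norm_add_mul_self_sub_norm_mul_self_sub_norm_mul_self_div_two, ← map_add, hπ, hπ,
    hπ]

theorem inner_avg_fix {g : K} {u : V} (hu : π g u = u) (v : V) : ⟪u, avg π g v⟫ = ⟪u, v⟫ := by
  rw [avg_apply, inner_smul_right, inner_sum]
  rw [Finset.sum_congr rfl (g := fun _ => ⟪u, v⟫) fun a _ => by
    conv_lhs => rw [← pow_fix π hu a.val]
    exact inner_pi hπ _ _ _]
  simp only [sum_const, card_univ, ZMod.card, nsmul_eq_mul]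
  push_cast; ring

theorem avg_symm {g : K} (hg : g ^ 17 = 1) (u v : V) : ⟪avg π g u, v⟫ = ⟪u, avg π g v⟫ := by
  rw [← inner_avg_fix hπ (mul_avg π hg u) v, real_inner_comm,
    inner_avg_fix hπ (mul_avg π hg v) u, real_inner_comm]

theorem angle {x y z : K} (hx : x ^ 17 = 1) (hz : z ^ 17 = 1)
    (cx : Commute z x) (cy : Commute z y) (h : y * x = x * y * z) {u : V} (hu : π y u = u)
    (hC : avg π z u = 0) : ‖avg π x u‖ ≤ ‖u‖ / 4 := by
  have h0 : ∀ a : F, a ≠ 0 → ⟪u, π (x ^ a.val) u⟫ = 0 := by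
    intro a ha
    have h1 : ∀ b : F, ⟪u, π (x ^ a.val) (π (z ^ (a * b).val) u)⟫ = ⟪u, π (x ^ a.val) u⟫ := by
      intro b
      rw [← inner_pi hπ (y ^ b.val) u (π (x ^ a.val) u), pow_fix π hu, ← Module.End.mul_apply (π _),
        ← Module.End.mul_apply (π (y ^ b.val)), ← map_mul, ← map_mul, heis_pow cx cy h, pow_val_mul hz,
        mul_assoc, ← ((cy.pow_left _).pow_right _).eq, ← mul_assoc, map_mul (π) _ (y ^ b.val),
        Module.End.mul_apply, pow_fix π hu]
    have h2 : ∑ b : F, π (z ^ (a * b).val) u = 0 := by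
      have h3 : ∑ b : F, π (z ^ (a * b).val) u = ∑ b : F, π (z ^ b.val) u :=
        Fintype.sum_equiv (Equiv.mulLeft₀ a ha) _ _ fun b => rfl
      rw [avg_apply] at hC
      rw [h3]
      exact (smul_eq_zero.mp hC).resolve_left (by norm_num)
    have h4 : ∑ b : F, ⟪u, π (x ^ a.val) (π (z ^ (a * b).val) u)⟫ = 0 := by
      rw [← inner_sum, ← map_sum, h2, map_zero, inner_zero_right]
    rw [Finset.sum_congr rfl fun b _ => h1 b] at h4
    simpa [ZMod.card] using h4
  have h5 : ‖avg π x u‖ ^ 2 = ‖u‖ ^ 2 / 17 := by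
    rw [← real_inner_self_eq_norm_sq, inner_avg_fix hπ (mul_avg π hx u), real_inner_comm, avg_apply,
      inner_smul_right, inner_sum, Finset.sum_eq_single 0 (fun a _ ha => h0 a ha) (by simp)]
    simp only [ZMod.val_zero, pow_zero, map_one, Module.End.one_apply, real_inner_self_eq_norm_sq]
    ring
  refine abs_le_of_sq_le_sq' ?_ (by positivity) |>.2
  rw [h5]; nlinarith [sq_nonneg ‖u‖]

theorem pair_ineq {x y z : K} (hx : x ^ 17 = 1) (hy : y ^ 17 = 1) (hz : z ^ 17 = 1)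
    (cx : Commute z x) (cy : Commute z y) (h : y * x = x * y * z) (v : V) :
    -(1 / 4) * (‖v - avg π x v‖ ^ 2 + ‖v - avg π y v‖ ^ 2) ≤
      2 * ⟪v - avg π x v, v - avg π y v⟫ := by
  set P := avg π x with hP
  set Q := avg π y with hQ
  set C := avg π z with hC
  have PP : ∀ w, P (P w) = P w := fun w => avg_fix π (mul_avg π hx w)
  have QQ : ∀ w, Q (Q w) = Q w := fun w => avg_fix π (mul_avg π hy w)
  have CC : ∀ w, C (C w) = C w := fun w => avg_fix π (mul_avg π hz w)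
  have Ps : ∀ u w, ⟪P u, w⟫ = ⟪u, P w⟫ := avg_symm hπ hx
  have Qs : ∀ u w, ⟪Q u, w⟫ = ⟪u, Q w⟫ := avg_symm hπ hy
  have Cs : ∀ u w, ⟪C u, w⟫ = ⟪u, C w⟫ := avg_symm hπ hz
  have CP : ∀ w, C (P w) = P (C w) := avg_comm_avg π cx
  have CQ : ∀ w, C (Q w) = Q (C w) := avg_comm_avg π cy
  -- the part where `z` acts trivially
  have PQ : ∀ w, P (Q (C w)) = Q (P (C w)) := by
    intro w
    have hw : π z (C w) = C w := mul_avg π hz w
    generalize C w = w' at hw
    rw [hP, hQ, avg_apply π x, avg_apply π x, map_smul, map_sum]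
    congr 1
    refine Finset.sum_congr rfl fun a _ => ?_
    rw [avg_apply π y w', avg_apply π y, map_smul, map_sum]
    congr 1
    refine Finset.sum_congr rfl fun b _ => ?_
    rw [← Module.End.mul_apply (π (y ^ b.val)) (π (x ^ a.val)) w', ← map_mul, heis_pow cx cy h,
      map_mul, map_mul, Module.End.mul_apply, pow_fix π hw]; rfl
  have part1 : 0 ≤ ⟪C v - P (C v), C v - Q (C v)⟫ := by
    have : ⟪C v - P (C v), C v - Q (C v)⟫ = ‖(C v - Q (C v)) - P (C v - Q (C v))‖ ^ 2 := by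
      rw [← real_inner_self_eq_norm_sq]
      have PQP : P (Q (P (C v))) = Q (P (C v)) := by rw [← PQ, PP]
      simp only [map_sub, inner_sub_left, inner_sub_right, Ps, Qs, PP, QQ, PQ, PQP]
      ring
    rw [this]; positivity
  -- the complementary part
  have part2 : ∀ w, C w = 0 →
      -(1 / 4) * (‖w - P w‖ ^ 2 + ‖w - Q w‖ ^ 2) ≤ 2 * ⟪w - P w, w - Q w⟫ := by
    intro w hw
    have hc : ⟪P w, Q w⟫ ≤ ‖P w‖ * (‖Q w‖ / 4) := by
      calc ⟪P w, Q w⟫ = ⟪P w, P (Q w)⟫ := by rw [← Ps (P w), PP]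
        _ ≤ ‖P w‖ * ‖P (Q w)‖ := real_inner_le_norm _ _
        _ ≤ _ := mul_le_mul_of_nonneg_left
            (angle hπ hx hz cx cy h (mul_avg π hy w) (by rw [← hC, CQ, hw, map_zero]))
            (norm_nonneg _)
    have ha : ⟪w, P w⟫ = ‖P w‖ ^ 2 := by rw [← real_inner_self_eq_norm_sq, Ps, PP]
    have hb : ⟪w, Q w⟫ = ‖Q w‖ ^ 2 := by rw [← real_inner_self_eq_norm_sq, Qs, QQ]
    have hM : ‖P w + Q w‖ ^ 2 = ‖P w‖ ^ 2 + ‖Q w‖ ^ 2 + 2 * ⟪P w, Q w⟫ := by
      rw [norm_add_sq_real]; ring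
    have hw1 : ‖P w‖ ^ 2 + ‖Q w‖ ^ 2 ≤ ‖w‖ * ‖P w + Q w‖ := by
      rw [← ha, ← hb, ← inner_add_right]; exact real_inner_le_norm _ _
    have hM2 : ‖P w + Q w‖ ^ 2 ≤ 5 / 4 * (‖P w‖ ^ 2 + ‖Q w‖ ^ 2) := by
      nlinarith [sq_nonneg (‖P w‖ - ‖Q w‖)]
    have hn : ‖P w‖ ^ 2 + ‖Q w‖ ^ 2 ≤ 5 / 4 * ‖w‖ ^ 2 := by
      nlinarith [sq_nonneg (5 / 4 * ‖w‖ - ‖P w + Q w‖)]
    have hsq : 0 ≤ ‖(5 / 4 : ℝ) • w - (P w + Q w)‖ ^ 2 := by positivity
    rw [norm_sub_sq_real, hM, norm_smul, inner_smul_left, inner_add_right, ha, hb] at hsq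
    rw [norm_sub_sq_real, norm_sub_sq_real, ha, hb]
    simp only [inner_sub_left, inner_sub_right, real_inner_self_eq_norm_sq, hb]
    rw [real_inner_comm w (P w), ha]
    simp only [Real.norm_eq_abs, conj_trivial] at hsq
    rw [abs_of_pos (by norm_num : (0 : ℝ) < 5 / 4)] at hsq
    nlinarith
  have hw : C (v - C v) = 0 := by rw [map_sub, CC, sub_self]
  have p2 := part2 _ hw
  set w := v - C v with hwdef
  have orth : ∀ a b : V, C b = 0 → ⟪C a, b⟫ = 0 := fun a b hb => by rw [Cs, hb, inner_zero_right]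
  have e1 : v - P v = C (v - P v) + (w - P w) := by
    rw [hwdef, map_sub, map_sub, CP]; abel
  have e2 : v - Q v = C (v - Q v) + (w - Q w) := by
    rw [hwdef, map_sub, map_sub, CQ]; abel
  have k1 : C (w - P w) = 0 := by rw [map_sub, CP, hw]; simp
  have k2 : C (w - Q w) = 0 := by rw [map_sub, CQ, hw]; simp
  have n1 : ‖w - P w‖ ^ 2 ≤ ‖v - P v‖ ^ 2 := by
    rw [e1, norm_add_sq_real, orth _ _ k1]; nlinarith [sq_nonneg ‖C (v - P v)‖]
  have n2 : ‖w - Q w‖ ^ 2 ≤ ‖v - Q v‖ ^ 2 := by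
    rw [e2, norm_add_sq_real, orth _ _ k2]; nlinarith [sq_nonneg ‖C (v - Q v)‖]
  have n3 : ⟪v - P v, v - Q v⟫ = ⟪C v - P (C v), C v - Q (C v)⟫ + ⟪w - P w, w - Q w⟫ := by
    conv_lhs => rw [e1, e2]
    rw [inner_add_left, inner_add_right, inner_add_right, orth _ _ k2, real_inner_comm (C _) (w - P w),
      orth _ _ k1, map_sub, map_sub, CP, CQ]
    ring
  rw [n3]; linarith

omit hπ in
theorem card_I : Fintype.card I = 4 := by simp [I, ZMod.card]

theorem gap {g : I → K} (hg : Rel g) (v : V) {D : ℝ} (hD : ∀ i, ‖π (g i) v - v‖ ≤ D) {κ : ℝ}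
    (hκ : 0 < κ) : ∃ η : V, ‖η - v‖ ≤ 544 * D ∧ ∀ i, ‖π (g i) η - η‖ ≤ κ := by
  let A : I → V → V := fun i w => w - avg π (g i) w
  let Δ : V → V := fun w => ∑ i, A i w
  let q : V → ℝ := fun w => ∑ i, ‖A i w‖ ^ 2
  have q0 : ∀ w, 0 ≤ q w := fun w => Finset.sum_nonneg fun _ _ => by positivity
  have AA : ∀ i u w, ⟪A i u, A i w⟫ = ⟪A i u, w⟫ := by
    intro i u w
    simp only [A, inner_sub_left, inner_sub_right, avg_symm hπ (hg.pow i),
      avg_fix π (mul_avg π (hg.pow i) _)]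
    ring
  have Ale : ∀ i w, ‖A i w‖ ^ 2 ≤ ‖w‖ ^ 2 := by
    intro i w
    have h1 : ‖A i w‖ ^ 2 ≤ ‖A i w‖ * ‖w‖ := by
      rw [← real_inner_self_eq_norm_sq, AA]; exact real_inner_le_norm _ _
    nlinarith [sq_nonneg (‖A i w‖ - ‖w‖)]
  have hΔ1 : ∀ w, q w / 4 ≤ ‖Δ w‖ ^ 2 := by
    intro w
    have h1 : ‖Δ w‖ ^ 2 = ∑ i, ∑ j, ⟪A i w, A j w⟫ := by
      rw [← real_inner_self_eq_norm_sq]; simp only [Δ, sum_inner, inner_sum]
      exact Finset.sum_comm
    have h2 : ∀ i j, -(1 / 8) * (‖A i w‖ ^ 2 + ‖A j w‖ ^ 2) +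
        (if i = j then 5 / 4 * ‖A i w‖ ^ 2 else 0) ≤ ⟪A i w, A j w⟫ := by
      intro i j
      split_ifs with hij
      · subst hij; rw [real_inner_self_eq_norm_sq]; linarith
      · obtain ⟨z, hz, cx, cy, h⟩ := hg.heis i j
        have := pair_ineq hπ (hg.pow i) (hg.pow j) hz cx cy h w
        simp only [A]; linarith
    rw [h1]
    refine le_trans (le_of_eq ?_) (Finset.sum_le_sum fun i _ => Finset.sum_le_sum fun j _ => h2 i j)
    simp only [Finset.sum_add_distrib, Finset.sum_ite_eq, Finset.mem_univ, if_true, mul_add,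
      ← Finset.mul_sum, Finset.sum_const, Finset.card_univ, card_I, nsmul_eq_mul, q]
    push_cast; ring
  have hΔ2 : ∀ w, ‖Δ w‖ ^ 2 ≤ 4 * q w := by
    intro w
    have h1 : ‖Δ w‖ ≤ ∑ i, ‖A i w‖ := norm_sum_le _ _
    have h2 := sq_sum_le_card_mul_sum_sq (s := (univ : Finset I)) (f := fun i => ‖A i w‖)
    rw [Finset.card_univ, card_I] at h2
    push_cast at h2
    exact le_trans (pow_le_pow_left₀ (norm_nonneg _) h1 2) h2
  let T : V → V := fun w => w - (1 / 4 : ℝ) • Δ w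
  have hT : ∀ w, q (T w) ≤ 15 / 16 * q w := by
    intro w
    have h1 : ∀ i, ‖A i (T w)‖ ^ 2 ≤
        ‖A i w‖ ^ 2 - 1 / 2 * ⟪A i w, Δ w⟫ + 1 / 16 * ‖Δ w‖ ^ 2 := by
      intro i
      have e : A i (T w) = A i w - (1 / 4 : ℝ) • A i (Δ w) := by
        simp only [A, T, map_sub, map_smul, smul_sub]; abel
      rw [e, norm_sub_sq_real, inner_smul_right, AA, norm_smul, mul_pow]
      have := Ale i (Δ w)
      norm_num
      linarith
    have h2 : q (T w) ≤ q w - 1 / 2 * ‖Δ w‖ ^ 2 + 1 / 4 * ‖Δ w‖ ^ 2 := by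
      refine le_trans (Finset.sum_le_sum fun i _ => h1 i) (le_of_eq ?_)
      simp only [Finset.sum_add_distrib, Finset.sum_sub_distrib, ← Finset.mul_sum, ← sum_inner,
        Finset.sum_const, Finset.card_univ, card_I, nsmul_eq_mul, q]
      rw [show (∑ i, A i w) = Δ w from rfl, real_inner_self_eq_norm_sq]
      push_cast; ring
    linarith [hΔ1 w]
  let r : V → ℝ := fun w => √(q w)
  have r0 : ∀ w, 0 ≤ r w := fun w => Real.sqrt_nonneg _
  have rsq : ∀ w, r w ^ 2 = q w := fun w => Real.sq_sqrt (q0 w)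
  have hTr : ∀ w, r (T w) ≤ 31 / 32 * r w := fun w =>
    abs_le_of_sq_le_sq' (by rw [mul_pow, rsq, rsq]; linarith [hT w, q0 w])
      (by have := r0 w; positivity) |>.2
  have hTd : ∀ w, ‖T w - w‖ ≤ r w / 2 := fun w => by
    have : ‖Δ w‖ ≤ 2 * r w :=
      abs_le_of_sq_le_sq' (by rw [mul_pow, rsq]; linarith [hΔ2 w]) (by have := r0 w; positivity) |>.2
    simp only [T, sub_sub_cancel_left, norm_neg, norm_smul]
    norm_num; linarith
  have hit : ∀ n : ℕ, r (T^[n] v) ≤ (31 / 32) ^ n * r v ∧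
      ‖T^[n] v - v‖ ≤ 16 * (1 - (31 / 32) ^ n) * r v := by
    intro n
    induction n with
    | zero => simp
    | succ n ih =>
      rw [Function.iterate_succ_apply']
      have h1 := hTr (T^[n] v)
      have h2 := hTd (T^[n] v)
      have h3 := norm_sub_le_norm_sub_add_norm_sub (T (T^[n] v)) (T^[n] v) v
      rw [pow_succ]
      constructor <;> nlinarith [ih.1, ih.2]
  have D0 : 0 ≤ D := le_trans (norm_nonneg _) (hD none)
  have hpow : ∀ i (n : ℕ), ‖v - π (g i ^ n) v‖ ≤ n * D := by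
    intro i n
    induction n with
    | zero => simp
    | succ n ih =>
      have h1 := norm_sub_le_norm_sub_add_norm_sub v (π (g i ^ n) v) (π (g i ^ (n + 1)) v)
      have h2 : ‖π (g i ^ n) v - π (g i ^ (n + 1)) v‖ ≤ D := by
        rw [pow_succ, map_mul, Module.End.mul_apply, ← map_sub, hπ, norm_sub_rev]; exact hD i
      push_cast; linarith
  have hA : ∀ i, ‖A i v‖ ≤ 17 * D := by
    intro i
    have e : A i v = (1 / 17 : ℝ) • ∑ a : F, (v - π (g i ^ a.val) v) := by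
      simp only [A, avg_apply, Finset.sum_sub_distrib, smul_sub, sum_const, card_univ, ZMod.card]
      rw [← Nat.cast_smul_eq_nsmul ℝ, smul_smul]; norm_num
    rw [e, norm_smul]
    have h1 : ‖∑ a : F, (v - π (g i ^ a.val) v)‖ ≤ ∑ _a : F, 17 * D :=
      norm_sum_le_of_le _ fun a _ => (hpow i _).trans (mul_le_mul_of_nonneg_right
        (by exact_mod_cast (ZMod.val_lt a).le) D0)
    simp only [sum_const, card_univ, ZMod.card, nsmul_eq_mul] at h1
    norm_num at h1 ⊢; linarith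
  have hrv : r v ≤ 34 * D := by
    refine abs_le_of_sq_le_sq' ?_ (by positivity) |>.2
    rw [rsq]
    refine le_trans (Finset.sum_le_sum (g := fun _ => (17 * D) ^ 2) fun i _ =>
      pow_le_pow_left₀ (norm_nonneg _) (hA i) 2) (le_of_eq ?_)
    simp only [sum_const, card_univ, card_I, nsmul_eq_mul]; push_cast; ring
  obtain ⟨n, hn⟩ := exists_pow_lt_of_lt_one (x := κ / (2 * (r v + 1))) (y := (31 / 32 : ℝ))
    (by have := r0 v; positivity) (by norm_num)
  refine ⟨T^[n] v, ?_, fun i => ?_⟩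
  · have : (0 : ℝ) ≤ (31 / 32) ^ n := by positivity
    nlinarith [(hit n).2, r0 v]
  · set η := T^[n] v
    have e : π (g i) η - η = π (g i) (A i η) - A i η := by
      simp only [A, map_sub, mul_avg π (hg.pow i)]; abel
    have h1 : ‖A i η‖ ≤ r η := Real.le_sqrt_of_sq_le
      (Finset.single_le_sum (f := fun i => ‖A i η‖ ^ 2) (fun _ _ => by positivity) (mem_univ i))
    have h2 := norm_sub_le (π (g i) (A i η)) (A i η)
    rw [hπ] at h2
    rw [lt_div_iff₀ (by have := r0 v; positivity)] at hn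
    have : (0 : ℝ) ≤ (31 / 32) ^ n := by positivity
    rw [e]
    nlinarith [(hit n).1, r0 v]

end

/-- finite-dimensional version: an exactly invariant vector -/
theorem gap_fd {K V : Type*} [Group K] [NormedAddCommGroup V] [InnerProductSpace ℝ V]
    [FiniteDimensional ℝ V] {π : K →* Module.End ℝ V} (hπ : ∀ g v, ‖π g v‖ = ‖v‖)
    {g : I → K} (hg : Rel g) (v : V) {D : ℝ} (hD : ∀ i, ‖π (g i) v - v‖ ≤ D) :
    ∃ η : V, ‖η - v‖ ≤ 544 * D ∧ ∀ i, π (g i) η = η := by
  have D0 : 0 ≤ D := le_trans (norm_nonneg _) (hD none)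
  have hc : Continuous fun η : V => ∑ i, ‖π (g i) η - η‖ :=
    continuous_finset_sum _ fun i _ =>
      ((LinearMap.continuous_of_finiteDimensional (π (g i))).sub continuous_id).norm
  obtain ⟨η, hη, hmin⟩ := (isCompact_closedBall v (544 * D)).exists_isMinOn
    ⟨v, Metric.mem_closedBall_self (by positivity)⟩ hc.continuousOn
  refine ⟨η, by simpa [dist_eq_norm] using hη, fun i => ?_⟩
  have h0 : ∑ i, ‖π (g i) η - η‖ ≤ 0 := by
    refine le_of_forall_pos_le_add fun κ hκ => ?_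
    obtain ⟨η', h1, h2⟩ := gap hπ hg v hD (κ := κ / 4) (by positivity)
    have h3 : ∑ i, ‖π (g i) η - η‖ ≤ ∑ i, ‖π (g i) η' - η'‖ :=
      hmin (show η' ∈ Metric.closedBall v (544 * D) by simpa [dist_eq_norm] using h1)
    refine h3.trans ((Finset.sum_le_sum fun i _ => h2 i).trans (le_of_eq ?_))
    simp only [sum_const, card_univ, card_I, nsmul_eq_mul]; push_cast; ring
  have := Finset.single_le_sum (f := fun i => ‖π (g i) η - η‖) (fun _ _ => norm_nonneg _) (mem_univ i)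
  exact sub_eq_zero.mp (norm_le_zero_iff.mp (this.trans h0))

end Crest.Agent.KE
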