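import Crest.Agent.KE.Gap
/-! The group and its finite permutation models. -/
set_option autoImplicit false
namespace Crest.Agent.KE
open Finset

theorem Rel.comap {K K' : Type*} [Group K] [Group K'] {g : I → K} (φ : K →* K')
    (hφ : Function.Injective φ) (h : Rel fun i => φ (g i)) : Rel g := by
  refine ⟨fun i => hφ (by rw [map_pow, map_one]; exact h.pow i), fun i j => ?_⟩
  obtain ⟨z, h1, h2, h3, h4⟩ := h.heis i j
  have hz : φ ((g i * g j)⁻¹ * (g j * g i)) = z := by
    rw [map_mul, map_mul, h4, map_inv, map_mul]; group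
  refine ⟨(g i * g j)⁻¹ * (g j * g i), hφ (by rw [map_pow, hz, h1, map_one]), hφ ?_, hφ ?_, by group⟩
  · rw [map_mul, map_mul φ (g i), hz]; exact h2
  · rw [map_mul, map_mul φ (g j), hz]; exact h3

theorem Rel.prod {K K' : Type*} [Group K] [Group K'] {g : I → K} {g' : I → K'} (h : Rel g)
    (h' : Rel g') : Rel fun i => (g i, g' i) := by
  refine ⟨fun i => Prod.ext (h.pow i) (h'.pow i), fun i j => ?_⟩
  obtain ⟨z, h1, h2, h3, h4⟩ := h.heis i j
  obtain ⟨z', h1', h2', h3', h4'⟩ := h'.heis i j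
  exact ⟨(z, z'), Prod.ext h1 h1', Prod.ext h2 h2', Prod.ext h3 h3', Prod.ext h4 h4'⟩

theorem Rel.pi {J : Type*} {K : J → Type*} [∀ k, Group (K k)] {g : ∀ k, I → K k}
    (h : ∀ k, Rel (g k)) : Rel fun i k => g k i := by
  refine ⟨fun i => funext fun k => (h k).pow i, fun i j => ?_⟩
  choose z h1 h2 h3 h4 using fun k => (h k).heis i j
  exact ⟨z, funext h1, funext h2, funext h3, funext h4⟩

section
variable {M : Type*} [AddCommGroup M] [Module F M]

/-- translation -/
def tr (f : M) : Equiv.Perm M := Equiv.addRight f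

@[simp] theorem tr_apply (f m : M) : tr f m = m + f := rfl

/-- unipotent linear map -/
def un (N : M →ₗ[F] M) (hN : ∀ m, N (N m) = 0) : Equiv.Perm M where
  toFun m := m + N m
  invFun m := m - N m
  left_inv m := by simp [hN]
  right_inv m := by simp [hN]

@[simp] theorem un_apply (N : M →ₗ[F] M) (hN : ∀ m, N (N m) = 0) (m : M) : un N hN m = m + N m := rfl

theorem nsmul17 (m : M) : 17 • m = 0 := by
  rw [← Nat.cast_smul_eq_nsmul F, show ((17 : ℕ) : F) = 0 from rfl, zero_smul]

theorem tr_pow (f : M) (n : ℕ) (m : M) : (tr f ^ n) m = m + n • f := by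
  induction n with
  | zero => simp
  | succ n ih => rw [pow_succ', Equiv.Perm.mul_apply, ih, tr_apply, succ_nsmul, add_assoc]

theorem un_pow (N : M →ₗ[F] M) (hN : ∀ m, N (N m) = 0) (n : ℕ) (m : M) :
    (un N hN ^ n) m = m + n • N m := by
  induction n with
  | zero => simp
  | succ n ih =>
    rw [pow_succ', Equiv.Perm.mul_apply, ih, un_apply, succ_nsmul, map_add, map_nsmul, hN]
    simp [add_assoc]

theorem tr_17 (f : M) : tr f ^ 17 = 1 := Equiv.ext fun m => by rw [tr_pow, nsmul17]; simp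

theorem un_17 (N : M →ₗ[F] M) (hN : ∀ m, N (N m) = 0) : un N hN ^ 17 = 1 :=
  Equiv.ext fun m => by rw [un_pow, nsmul17]; simp

/-- affine data -/
structure AD (M : Type*) [AddCommGroup M] [Module F M] where
  N : ZMod 3 → M →ₗ[F] M
  f : M
  nn : ∀ r m, N r (N r m) = 0
  n1 : ∀ r m, N r (N (r + 1) m) = 0

/-- the four generators -/
def AD.gen (D : AD M) : I → Equiv.Perm M
  | none => tr D.f
  | some r => un (D.N r) (D.nn r)

theorem AD.rel (D : AD M) : Rel D.gen := by
  refine ⟨fun i => ?_, fun i j => ?_⟩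
  · rcases i with _ | r
    exacts [tr_17 _, un_17 _ (D.nn r)]
  have nn := D.nn
  have n1 := D.n1
  rcases i with _ | r <;> rcases j with _ | r'
  · exact ⟨1, one_pow _, Commute.one_left _, Commute.one_left _, by simp⟩
  · refine ⟨tr (D.N r' D.f), tr_17 _, ?_, ?_, ?_⟩ <;> ext m <;> simp [AD.gen, nn] <;> abel
  · refine ⟨tr (-D.N r D.f), tr_17 _, ?_, ?_, ?_⟩ <;> ext m <;> simp [AD.gen, nn] <;> abel
  · have h3 : ∀ r r' : ZMod 3, r' = r ∨ r' = r + 1 ∨ r = r' + 1 := by decide
    rcases h3 r r' with rfl | rfl | rfl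
    · exact ⟨1, one_pow _, Commute.one_left _, Commute.one_left _, by simp⟩
    · refine ⟨un (D.N (r + 1) ∘ₗ D.N r) (fun m => by simp [n1]), un_17 _ _, ?_, ?_, ?_⟩ <;> ext m <;>
        simp [AD.gen, nn, n1] <;> abel
    · refine ⟨un (-(D.N (r' + 1) ∘ₗ D.N r')) (fun m => by simp [n1]), un_17 _ _, ?_, ?_, ?_⟩ <;>
        ext m <;> simp [AD.gen, nn, n1] <;> abel

end

/-- finite models -/
abbrev W (k : ℕ) : Type := Fin (k + 1) → F

/-- root elements -/
def EW (k : ℕ) (r : ZMod 3) (ℓ : ℕ) : W k →ₗ[F] W k where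
  toFun m i := if ℓ ≤ i.val ∧ ((i.val - ℓ : ℕ) : ZMod 3) = r then m ⟨i.val - ℓ, by omega⟩ else 0
  map_add' a b := by funext i; simp only [Pi.add_apply]; split_ifs <;> simp
  map_smul' c a := by funext i; simp only [Pi.smul_apply]; split_ifs <;> simp

theorem EW_apply (k : ℕ) (r : ZMod 3) (ℓ : ℕ) (m : W k) (i : Fin (k + 1)) :
    EW k r ℓ m i =
      if ℓ ≤ i.val ∧ ((i.val - ℓ : ℕ) : ZMod 3) = r then m ⟨i.val - ℓ, by omega⟩ else 0 := rfl

theorem EW_EW (k : ℕ) (r r' : ZMod 3) (ℓ ℓ' : ℕ) (m : W k) :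
    EW k r' ℓ' (EW k r ℓ m) = if r' = r + ℓ then EW k r (ℓ + ℓ') m else 0 := by
  funext i
  have hc : ℓ + ℓ' ≤ i.val →
      ((i.val - ℓ' : ℕ) : ZMod 3) = ((i.val - (ℓ + ℓ') : ℕ) : ZMod 3) + ℓ := fun h => by
    rw [← Nat.cast_add]; congr 1; omega
  have hs : i.val - ℓ' - ℓ = i.val - (ℓ + ℓ') := by omega
  rw [ite_apply, EW_apply, EW_apply, EW_apply]
  simp only [hs, Pi.zero_apply]
  by_cases h1 : ℓ + ℓ' ≤ i.val
  · have h2 : ℓ' ≤ i.val := by omega
    have h3 : ℓ ≤ i.val - ℓ' := by omega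
    simp only [h1, h2, h3, true_and, hc h1]
    by_cases h4 : ((i.val - (ℓ + ℓ') : ℕ) : ZMod 3) = r
    · simp only [h4, if_true, eq_comm]
    · simp [h4]
  · have h3 : ¬ (ℓ' ≤ i.val ∧ ℓ ≤ i.val - ℓ') := by omega
    split_ifs <;> simp_all

theorem EW_single (k : ℕ) (r : ZMod 3) (ℓ : ℕ) (j : Fin (k + 1)) :
    EW k r ℓ (Pi.single j 1) =
      if h : j.val + ℓ < k + 1 ∧ (j.val : ZMod 3) = r then Pi.single ⟨j.val + ℓ, h.1⟩ 1 else 0 := by
  funext i
  rw [EW_apply]
  simp only [Pi.single_apply, Fin.ext_iff]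
  by_cases h : i.val = j.val + ℓ
  · have h1 : j.val + ℓ < k + 1 := by omega
    by_cases h2 : (j.val : ZMod 3) = r <;> simp [h, h1, h2, Pi.single_apply, Fin.ext_iff]
  · have h1 : ¬ (ℓ ≤ i.val ∧ i.val - ℓ = j.val) := by omega
    split_ifs <;> simp_all [Pi.single_apply, Fin.ext_iff]

/-- affine data on the finite model -/
def DW (k : ℕ) : AD (W k) where
  N r := EW k r 1
  f := Pi.single 0 1
  nn r m := by rw [EW_EW, if_neg]; revert r; decide
  n1 r m := by rw [EW_EW, if_neg]; revert r; decide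

/-- the central translation vector -/
def fW (k : ℕ) : W k := Pi.single (Fin.last k) 1

theorem gen_add_fW (k : ℕ) (i : I) (m : W k) : (DW k).gen i (m + fW k) = (DW k).gen i m + fW k := by
  rcases i with _ | r
  · simp [AD.gen, add_right_comm]
  · simp [AD.gen, DW, fW, EW_single, add_right_comm]

theorem cons_add_fW (k : ℕ) (a : F) (m : W k) :
    (Fin.cons a m : W (k + 1)) + fW (k + 1) = Fin.cons a (m + fW k) := by
  funext i
  refine Fin.cases ?_ (fun i => ?_) i
  · simp [fW, Pi.single_apply, Fin.ext_iff]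
  · simp [fW, Pi.single_apply, Fin.ext_iff]

theorem gen_none_cons (k : ℕ) (a : F) (m : W k) :
    (DW (k + 1)).gen none (Fin.cons a m) = Fin.cons (a + 1) m := by
  funext i
  refine Fin.cases ?_ (fun i => ?_) i <;> simp [AD.gen, DW]

theorem gen_some_cons (k : ℕ) (r : ZMod 3) (a : F) (m : W k) :
    (DW (k + 1)).gen (some r) (Fin.cons a m) =
      Fin.cons a (((DW k).gen none ^ (if r = 0 then a.val else 0) * (DW k).gen (some (r - 1))) m) := by
  funext i
  simp only [AD.gen, DW, Equiv.Perm.mul_apply, tr_pow, un_apply, Pi.add_apply, EW_apply]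
  refine Fin.cases ?_ (fun i => ?_) i
  · simp
  refine Fin.cases ?_ (fun i => ?_) i
  · simp only [Fin.cons_succ, Pi.add_apply, EW_apply]
    by_cases hr : r = 0 <;> simp [hr, eq_comm (b := r)]
  · simp only [Fin.cons_succ, Pi.add_apply, EW_apply]
    have e : (Fin.cons a m : W (k + 1)) ⟨i.val + 1, by omega⟩ = m ⟨i.val, by omega⟩ := rfl
    simp [e, eq_sub_iff_add_eq]

/-- the infinite model -/
abbrev MM : Type := ℤ → F

/-- root elements on the infinite model -/
def NM (r : ZMod 3) : MM →ₗ[F] MM where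
  toFun m i := if ((i - 1 : ℤ) : ZMod 3) = r then m (i - 1) else 0
  map_add' a b := by funext i; simp only [Pi.add_apply]; split_ifs <;> simp
  map_smul' c a := by funext i; simp only [Pi.smul_apply]; split_ifs <;> simp

theorem NM_apply (r : ZMod 3) (m : MM) (i : ℤ) :
    NM r m i = if ((i - 1 : ℤ) : ZMod 3) = r then m (i - 1) else 0 := rfl

/-- affine data on the infinite model -/
def DM : AD MM where
  N := NM
  f := Pi.single 0 1
  nn r m := by
    funext i
    simp only [NM_apply, Pi.zero_apply]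
    split_ifs with h1 h2 <;> try rfl
    rw [Int.cast_sub, h1] at h2
    exact absurd h2 (by clear h1 h2; revert r; decide)
  n1 r m := by
    funext i
    simp only [NM_apply, Pi.zero_apply]
    split_ifs with h1 h2 <;> try rfl
    rw [Int.cast_sub, h1] at h2
    exact absurd h2 (by clear h1 h2; revert r; decide)

/-- the shift -/
def sh : Equiv.Perm MM where
  toFun m i := m (i - 1)
  invFun m i := m (i + 1)
  left_inv m := by funext i; simp
  right_inv m := by funext i; simp

theorem sh_apply (m : MM) (i : ℤ) : sh m i = m (i - 1) := rfl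

theorem sh_ident (r : ZMod 3) (a : F) :
    DM.gen (some r) * (DM.gen none ^ a.val * sh) =
      DM.gen none ^ a.val * sh *
        (DM.gen none ^ (if r = 0 then a.val else 0) * DM.gen (some (r - 1))) := by
  ext m i
  simp only [AD.gen, DM, Equiv.Perm.mul_apply, tr_pow, un_apply, Pi.add_apply, NM_apply, sh_apply,
    Pi.smul_apply, Pi.single_apply, Int.cast_sub (i - 1), Int.cast_one, sub_left_inj]
  by_cases hi : i - 1 = 0
  · by_cases hr : r = 0 <;> simp [hi, hr, eq_comm (b := r)]; ring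
  · simp only [hi, if_false, smul_zero, add_zero]; ring

/-- generators of the group -/
def genG : Option I → Equiv.Perm MM
  | none => sh
  | some i => DM.gen i

/-- the group -/
def GG : Subgroup (Equiv.Perm MM) := (FreeGroup.lift genG).range

instance : Countable GG := (Set.countable_range (FreeGroup.lift genG)).to_subtype

/-- the four generators in `GG` -/
def gG (i : I) : GG := ⟨DM.gen i, FreeGroup.of (some i), by simp [genG]⟩

/-- the shift in `GG` -/
def sG : GG := ⟨sh, FreeGroup.of none, by simp [genG]⟩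

theorem rel_gG : Rel gG := Rel.comap GG.subtype GG.subtype_injective DM.rel

theorem sG_ident (r : ZMod 3) (a : F) :
    gG (some r) * (gG none ^ a.val * sG) =
      gG none ^ a.val * sG * (gG none ^ (if r = 0 then a.val else 0) * gG (some (r - 1))) :=
  Subtype.ext (sh_ident r a)

/-- permutations commuting with the central translation -/
def CW (k : ℕ) : Subgroup (Equiv.Perm (W k)) := Subgroup.centralizer {tr (fW k)}

theorem CW_add {k : ℕ} (σ : CW k) (m : W k) : σ.1 (m + fW k) = σ.1 m + fW k :=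
  (congrArg (fun τ : Equiv.Perm (W k) => τ m) (σ.2 _ rfl)).symm

/-- generators in the finite models -/
def gW (k : ℕ) (i : I) : CW k := ⟨(DW k).gen i, by
  rintro _ rfl
  exact Equiv.ext fun m => (gen_add_fW k i m).symm⟩

theorem rel_gW (k : ℕ) : Rel (gW k) := Rel.comap (CW k).subtype (CW k).subtype_injective (DW k).rel

/-- the big group -/
abbrev KK : Type := GG × ∀ k, CW k

/-- generators in the big group -/
def gK (i : I) : KK := (gG i, fun k => gW k i)

theorem rel_gK : Rel gK := rel_gG.prod (Rel.pi rel_gW)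

end Crest.Agent.KE
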