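import Crest.Agent.KE.Gap
/-! Self-improvement of almost invariant vectors for asymptotic representations. -/
set_option autoImplicit false
namespace Crest.Agent.KE
open Finset Filter Topology
open scoped InnerProductSpace

theorem gap_form {K V : Type*} [Group K] [AddCommGroup V] [Module ℝ V]
    (c : PreInnerProductSpace.Core ℝ V) (π : K →* Module.End ℝ V) (N : V → ℝ)
    (hN : ∀ v, N v = √(c.inner v v)) (hπ : ∀ g v, N (π g v) = N v) {g : I → K} (hg : Rel g) (v : V)
    {D : ℝ} (hD : ∀ i, N (π (g i) v - v) ≤ D) {κ : ℝ} (hκ : 0 < κ) :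
    ∃ η : V, N (η - v) ≤ 544 * D ∧ ∀ i, N (π (g i) η - η) ≤ κ := by
  obtain rfl : N = fun v => √(c.inner v v) := funext hN
  letI := @InnerProductSpace.Core.toSeminormedAddCommGroup ℝ V _ _ _ c
  letI := InnerProductSpace.ofCore c
  exact gap (π := π) hπ hg v hD hκ

theorem exists_lim (ω : Ultrafilter ℕ) (f : ℕ → ℝ) (C : ℝ) (h : ∀ n, |f n| ≤ C) :
    ∃ l, Tendsto f ω (𝓝 l) := by
  obtain ⟨l, -, hl⟩ := (isCompact_Icc (a := -C) (b := C)).ultrafilter_le_nhds (ω.map f)
    (le_principal_iff.mpr (Eventually.of_forall fun n => abs_le.mp (h n) : ∀ᶠ n in ω, f n ∈ Set.Icc (-C) C))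
  exact ⟨l, hl⟩

theorem self_improve {K : Type*} [Group K] {g : I → K} (hg : Rel g) (ω : Ultrafilter ℕ)
    (X : ℕ → Type*) [∀ n, NormedAddCommGroup (X n)] [∀ n, InnerProductSpace ℂ (X n)]
    (w : ∀ n, K → X n →ₗ[ℂ] X n) (hw : ∀ n h ξ, ‖w n h ξ‖ ≤ ‖ξ‖) (ξ : ∀ n, X n) (hξ : ∀ n, ‖ξ n‖ ≤ 1)
    (hξ' : ∀ᶠ n in ω, ‖ξ n‖ = 1 ∧ ∀ i, ‖w n (g i) (ξ n) - ξ n‖ ≤ 1 / 2176)
    (hmul : ∀ a b, Tendsto (fun n => ‖w n a (w n b (ξ n)) - w n (a * b) (ξ n)‖) ω (𝓝 0))
    (hone : Tendsto (fun n => ‖w n 1 (ξ n) - ξ n‖) ω (𝓝 0)) {κ : ℝ} (hκ : 0 < κ) :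
    ∃ c : K →₀ ℂ, ∀ᶠ n in ω, 1 / 2 ≤ ‖c.sum fun h a => a • w n h (ξ n)‖ ∧
      ∀ i, ‖w n (g i) (c.sum fun h a => a • w n h (ξ n)) - c.sum fun h a => a • w n h (ξ n)‖ ≤ κ := by
  let ev : ∀ n, (K →₀ ℂ) →ₗ[ℂ] X n := fun n => Finsupp.linearCombination ℂ fun h => w n h (ξ n)
  have evs : ∀ n h a, ev n (Finsupp.single h a) = a • w n h (ξ n) := fun n h a => by simp [ev]
  have evb : ∀ c, ∃ C, ∀ n, ‖ev n c‖ ≤ C := by
    intro c
    induction c using Finsupp.induction_linear with
    | zero => exact ⟨0, by simp⟩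
    | add a b ha hb =>
      obtain ⟨C, hC⟩ := ha
      obtain ⟨D, hD⟩ := hb
      exact ⟨C + D, fun n => by rw [map_add]; exact norm_add_le_of_le (hC n) (hD n)⟩
    | single h a =>
      exact ⟨‖a‖, fun n => by
        rw [evs, norm_smul]; exact mul_le_of_le_one_right (norm_nonneg _) ((hw _ _ _).trans (hξ n))⟩
  have hl : ∀ c d, ∃ l, Tendsto (fun n => (⟪ev n c, ev n d⟫_ℂ).re) ω (𝓝 l) := by
    intro c d
    obtain ⟨C, hC⟩ := evb c
    obtain ⟨D, hD⟩ := evb d
    exact exists_lim ω _ (C * D) fun n => (Complex.abs_re_le_norm _).trans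
      ((norm_inner_le_norm _ _).trans (mul_le_mul (hC n) (hD n) (norm_nonneg _)
        ((norm_nonneg _).trans (hC n))))
  choose ip hip using hl
  have hsq : ∀ c, Tendsto (fun n => ‖ev n c‖ ^ 2) ω (𝓝 (ip c c)) := fun c =>
    (hip c c).congr fun n => by rw [← inner_self_eq_norm_sq (𝕜 := ℂ)]; rfl
  let core : PreInnerProductSpace.Core ℝ (K →₀ ℂ) :=
    { inner := ip
      conj_inner_symm := fun c d => tendsto_nhds_unique (hip d c)
        ((hip c d).congr fun n => (inner_re_symm (𝕜 := ℂ) _ _))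
      re_inner_nonneg := fun c => ge_of_tendsto' (hsq c) fun n => by positivity
      add_left := fun c d e => tendsto_nhds_unique (hip (c + d) e)
        (((hip c e).add (hip d e)).congr fun n => by simp [inner_add_left])
      smul_left := fun c d r => tendsto_nhds_unique (hip (r • c) d)
        (((hip c d).const_mul r).congr fun n => by
          rw [← Complex.coe_smul, map_smul, inner_smul_left]; simp) }
  let N : (K →₀ ℂ) → ℝ := fun c => √(ip c c)
  have hN : ∀ c, Tendsto (fun n => ‖ev n c‖) ω (𝓝 (N c)) := fun c =>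
    (hsq c).sqrt.congr fun n => Real.sqrt_sq (norm_nonneg _)
  let π : K →* Module.End ℝ (K →₀ ℂ) :=
    { toFun := fun a => Finsupp.lmapDomain ℂ ℝ (a * ·)
      map_one' := by ext1 h; ext1 a; simp
      map_mul' := fun a b => by ext1 h; ext1 x; simp [mul_assoc] }
  have πs : ∀ a h x, π a (Finsupp.single h x) = Finsupp.single (a * h) x := fun a h x => by simp [π]
  have hπ : ∀ a c, Tendsto (fun n => ‖w n a (ev n c) - ev n (π a c)‖) ω (𝓝 0) := by
    intro a c
    induction c using Finsupp.induction_linear with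
    | zero => simp
    | add c d hc hd =>
      have := hc.add hd
      rw [add_zero] at this
      refine squeeze_zero (fun _ => norm_nonneg _) (fun n => ?_) this
      simp only [map_add]
      rw [add_sub_add_comm]; exact norm_add_le _ _
    | single h x =>
      have := (hmul a h).const_mul ‖x‖
      rw [mul_zero] at this
      refine this.congr fun n => ?_
      rw [πs, evs, evs, map_smul, ← smul_sub, norm_smul]
  have hle : ∀ a c, N (π a c) ≤ N c := by
    intro a c
    have := (hN c).add (hπ a c)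
    rw [add_zero] at this
    refine le_of_tendsto_of_tendsto' (hN _) this fun n => ?_
    have h1 := norm_sub_norm_le (ev n (π a c)) (w n a (ev n c))
    rw [norm_sub_rev] at h1
    linarith [hw n a (ev n c)]
  have heq : ∀ a c, N (π a c) = N c := fun a c => le_antisymm (hle a c) (by
    have := hle a⁻¹ (π a c)
    rwa [← Module.End.mul_apply, ← map_mul, inv_mul_cancel, map_one] at this)
  obtain ⟨c, hc1, hc2⟩ := gap_form core π N (fun _ => rfl) heq hg (Finsupp.single 1 1)
    (D := 1 / 2176) (fun i => by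
      have := hone.const_add (1 / 2176)
      rw [add_zero] at this
      refine le_of_tendsto_of_tendsto (hN _) this ?_
      filter_upwards [hξ'] with n hn
      rw [πs, map_sub, evs, evs, one_smul, one_smul, mul_one]
      have h1 := norm_sub_le_norm_sub_add_norm_sub (w n (g i) (ξ n)) (ξ n) (w n 1 (ξ n))
      rw [norm_sub_rev (ξ n)] at h1
      linarith [hn.2 i]) (κ := κ / 4) (by positivity)
  refine ⟨c, ?_⟩
  have e1 := (hN (c - Finsupp.single 1 1)).eventually_lt_const (u := 3 / 8) (by linarith)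
  have e2 := hone.eventually_lt_const (u := 1 / 8) (by norm_num)
  have e3 : ∀ᶠ n in ω, ∀ i, ‖ev n (π (g i) c - c)‖ < κ / 2 :=
    eventually_all.mpr fun i => (hN _).eventually_lt_const (by linarith [hc2 i])
  have e4 : ∀ᶠ n in ω, ∀ i, ‖w n (g i) (ev n c) - ev n (π (g i) c)‖ < κ / 2 :=
    eventually_all.mpr fun i => (hπ _ _).eventually_lt_const (by linarith)
  filter_upwards [e1, e2, e3, e4, hξ'] with n h1 h2 h3 h4 h5
  change 1 / 2 ≤ ‖ev n c‖ ∧ ∀ i, ‖w n (g i) (ev n c) - ev n c‖ ≤ κ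
  rw [map_sub, evs, one_smul] at h1
  refine ⟨?_, fun i => ?_⟩
  · have h6 := norm_sub_le_norm_sub_add_norm_sub (ev n c) (w n 1 (ξ n)) (ξ n)
    have h7 := norm_sub_norm_le (ξ n) (ev n c)
    rw [norm_sub_rev] at h7
    linarith [h5.1]
  · have h6 := norm_sub_le_norm_sub_add_norm_sub (w n (g i) (ev n c)) (ev n (π (g i) c)) (ev n c)
    have h7 := h3 i
    rw [map_sub] at h7
    linarith [h4 i]

end Crest.Agent.KE
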