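import Crest.Agent.KE.Cont
/-! Base case and the final contradiction. -/
set_option autoImplicit false
namespace Crest.Agent.KE
open Finset Filter Topology Crest.AnalysisR.CStarEmbedding
open scoped InnerProductSpace ComplexConjugate Pointwise

/-- the test element -/
noncomputable def tb {B : Type*} [Ring B] [Algebra ℂ B] (w : GG → B) : B :=
  1 + w (gG (some 0)) + w (gG (some 1)) + w (gG (some 2)) + conj (chi 1) • w (gG none)

theorem base_rep : ∃ (B : Type) (_ : CStarAlgebra B) (w : GG →* unitary B),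
    5 ≤ ‖tb fun g => (w g : B)‖ := by
  let C : F → Set MM := fun a => {m | (∀ i < 0, m i = 0) ∧ m 0 = a}
  have hinj : Function.Injective C := fun a b h => by
    have : (Pi.single 0 a : MM) ∈ C a := ⟨fun i hi => by simp [hi.ne], by simp⟩
    rw [h] at this
    simpa using this.2
  have hy : ∀ r, DM.gen (some r) • C = C := fun r => funext fun a => by
    have h1 : ∀ m ∈ C a, ∀ i ≤ 0, NM r m i = 0 := fun m hm i hi => by
      rw [NM_apply, hm.1 _ (by omega)]; simp
    refine Set.Subset.antisymm ?_ fun m hm => ⟨m - NM r m, ⟨fun i hi => ?_, ?_⟩, ?_⟩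
    · rintro _ ⟨m, hm, rfl⟩
      exact ⟨fun i hi => by simp [AD.gen, DM, h1 m hm i hi.le, hm.1 i hi],
        by simp [AD.gen, DM, h1 m hm 0 le_rfl, hm.2]⟩
    · simp [h1 m hm i hi.le, hm.1 i hi]
    · simp [h1 m hm 0 le_rfl, hm.2]
    · exact (DM.gen (some r)).apply_symm_apply m
  have hx : ∀ a, DM.gen none • C a = C (a + 1) := fun a => by
    refine Set.Subset.antisymm ?_ fun m hm => ⟨m - Pi.single 0 1, ⟨fun i hi => ?_, ?_⟩, ?_⟩
    · rintro _ ⟨m, hm, rfl⟩
      exact ⟨fun i hi => by simp [AD.gen, DM, hi.ne, hm.1 i hi], by simp [AD.gen, DM, hm.2]⟩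
    · simp [hi.ne, hm.1 i hi]
    · simp [hm.2]
    · simp [AD.gen, DM]
  let w : GG →* unitary (L2 (Set MM) →L[ℂ] L2 (Set MM)) :=
    permRep.comp ((MulAction.toPermHom (Equiv.Perm MM) (Set MM)).comp GG.subtype)
  have hw : ∀ g S, (w g : L2 (Set MM) →L[ℂ] L2 (Set MM)) (dl S) = dl (g.1 • S) := fun g S =>
    permRep_dl _ _
  refine ⟨_, inferInstance, w, ?_⟩
  let ξ : L2 (Set MM) := ∑ a, chi (-a) • dl (C a)
  have hn : ‖ξ‖ ^ 2 = 17 := by
    refine (norm_sum_orth (orth_dl.comp C hinj) (fun a => chi (-a)) univ).trans ?_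
    simp [norm_chi, ZMod.card]
  have h1 : ∀ r, (w (gG (some r)) : L2 (Set MM) →L[ℂ] L2 (Set MM)) ξ = ξ := fun r => by
    simp only [ξ, map_sum, map_smul, hw]
    exact Finset.sum_congr rfl fun a _ => by rw [show (gG (some r)).1 • C a = C a from congrFun (hy r) a]
  have h2 : conj (chi 1) • (w (gG none) : L2 (Set MM) →L[ℂ] L2 (Set MM)) ξ = ξ := by
    simp only [ξ, map_sum, map_smul, hw, Finset.smul_sum]
    refine Fintype.sum_equiv (Equiv.addRight 1) _ _ fun a => ?_
    rw [show (gG none).1 • C a = C (a + 1) from hx a, smul_smul, ← AddChar.map_neg_eq_conj,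
      ← AddChar.map_add_eq_mul, Equiv.coe_addRight, neg_add_rev]
  have h3 : tb (fun g => (w g : L2 (Set MM) →L[ℂ] L2 (Set MM))) ξ = (5 : ℂ) • ξ := by
    simp only [tb, ContinuousLinearMap.add_apply, ContinuousLinearMap.smul_apply, h1, h2,
      ContinuousLinearMap.one_apply]
    module
  have h4 := (tb fun g => (w g : L2 (Set MM) →L[ℂ] L2 (Set MM))).le_opNorm ξ
  rw [h3, norm_smul] at h4
  have h5 : 0 < ‖ξ‖ := by
    rcases (norm_nonneg ξ).eq_or_lt with h | h
    · rw [← h] at hn; norm_num at hn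
    · exact h
  simpa [h5] using h4

theorem near_fix {H : Type*} [NormedAddCommGroup H] [InnerProductSpace ℂ H] {η x y : H} {δ : ℝ}
    (hδ : 0 ≤ δ) (hδ1 : δ ≤ 1) (h1 : ‖η‖ ≤ 1) (h2 : ‖x‖ ≤ 1) (h3 : ‖y‖ ≤ 3)
    (h : 5 - δ ^ 2 / 4 ≤ ‖η + x + y‖) : ‖x - η‖ ≤ δ := by
  have h4 := norm_add_le (η + x) y
  have h5 := parallelogram_law_with_norm ℂ x η
  rw [add_comm x] at h5
  refine (abs_le_of_sq_le_sq' ?_ hδ).2
  have h6 : 2 - δ ^ 2 / 4 ≤ ‖η + x‖ := by linarith
  have h7 : (2 - δ ^ 2 / 4) ^ 2 ≤ ‖η + x‖ ^ 2 := pow_le_pow_left₀ (by nlinarith) h6 2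
  nlinarith [norm_nonneg η, norm_nonneg x, sq_nonneg (δ ^ 2)]

theorem con_base {u : GG → HH →L[ℂ] HH} (hle : ∀ g, ‖u g‖ ≤ 1)
    (h : 5 - (1 / 6000) ^ 2 / 4 < ‖tb u‖) : Con u 0 (1 / 2176) := by
  obtain ⟨η, h1, h2⟩ := (tb u).exists_lt_apply_of_lt_opNorm h
  simp only [tb, ContinuousLinearMap.add_apply, ContinuousLinearMap.smul_apply,
    ContinuousLinearMap.one_apply] at h2
  have hb : ∀ g, ‖u g η‖ ≤ ‖η‖ := fun g =>
    ((u g).le_opNorm η).trans (mul_le_of_le_one_left (norm_nonneg _) (hle g))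
  have hb' : ‖conj (chi 1) • u (gG none) η‖ ≤ ‖η‖ := by
    rw [norm_smul, Complex.norm_conj, norm_chi, one_mul]; exact hb _
  set a := u (gG (some 0)) η with ha
  set b := u (gG (some 1)) η with hb2
  set c := u (gG (some 2)) η with hc
  set d := conj (chi 1) • u (gG none) η with hd
  have ha1 : ‖a‖ ≤ ‖η‖ := hb _
  have hb1 : ‖b‖ ≤ ‖η‖ := hb _
  have hc1 : ‖c‖ ≤ ‖η‖ := hb _
  have t3 : ∀ x y z : HH, ‖x‖ ≤ ‖η‖ → ‖y‖ ≤ ‖η‖ → ‖z‖ ≤ ‖η‖ → ‖x + y + z‖ ≤ 3 * ‖η‖ :=
    fun x y z hx hy hz => by linarith [norm_add₃_le (a := x) (b := y) (c := z)]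
  have hη : 1 / 2 ≤ ‖η‖ := by
    have := t3 η a b le_rfl ha1 hb1
    linarith [norm_add₃_le (a := η + a + b) (b := c) (c := d)]
  have nf : ∀ x y : HH, ‖x‖ ≤ ‖η‖ → ‖y‖ ≤ 3 * ‖η‖ → η + a + b + c + d = η + x + y →
      ‖x - η‖ ≤ 1 / 6000 := fun x y hx hy he =>
    near_fix (by norm_num) (by norm_num) h1.le (by linarith) (y := y) (by linarith) (he ▸ h2.le)
  have hy : ∀ r, ‖u (gG (some r)) η - η‖ ≤ 1 / 6000 := by
    have : ∀ r : ZMod 3, r = 0 ∨ r = 1 ∨ r = 2 := by decide
    intro r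
    rcases this r with rfl | rfl | rfl
    · exact nf a _ ha1 (t3 b c d hb1 hc1 hb') (by abel)
    · exact nf b _ hb1 (t3 a c d ha1 hc1 hb') (by abel)
    · exact nf c _ hc1 (t3 a b d ha1 hb1 hb') (by abel)
  have hx : ‖u (gG none) η - chi 1 • η‖ ≤ 1 / 6000 := by
    have := nf d _ hb' (t3 a b c ha1 hb1 hc1) (by abel)
    have e : u (gG none) η - chi 1 • η = chi 1 • (d - η) := by
      rw [smul_sub, hd, smul_smul, Complex.mul_conj', norm_chi]; simp
    rwa [e, norm_smul, norm_chi, one_mul]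
  let ξ : XW 0 := WithLp.toLp 2 fun m => chi (m 0) • η
  have hξ : ∀ m, ξ m = chi (m 0) • η := fun _ => rfl
  have hcard : Fintype.card (W 0) = 17 := by simp [ZMod.card]
  refine con_of (c := 2) (δ := 5 * (1 / 6000)) ξ (by norm_num) ?_ (fun m => ?_) (fun i => ?_)
    (by norm_num)
  · refine (abs_le_of_sq_le_sq' ?_ (norm_nonneg _)).2
    rw [PiLp.norm_sq_eq_of_L2]
    simp only [hξ, norm_smul, norm_chi, one_mul, sum_const, card_univ, hcard, nsmul_eq_mul]
    push_cast
    nlinarith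
  · rw [hξ, hξ, smul_smul, ← AddChar.map_add_eq_mul, add_comm 1]; rfl
  · refine (abs_le_of_sq_le_sq' ?_ (by positivity)).2
    have h0 := wop_err (u (gG i)) 1 ((DW 0).gen i) ξ
    rw [wop_one] at h0
    rw [h0]
    refine (Finset.sum_le_sum (g := fun _ => (1 / 6000 : ℝ) ^ 2) fun m _ =>
      pow_le_pow_left₀ (norm_nonneg _) ?_ 2).trans ?_
    · rw [hξ, hξ, map_smul, ContinuousLinearMap.one_apply]
      rcases i with _ | r
      · have : (DW 0).gen none m 0 = m 0 + 1 := rfl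
        rw [this, AddChar.map_add_eq_mul, ← smul_smul, ← smul_sub, norm_smul, norm_chi, one_mul]
        exact hx
      · have : (DW 0).gen (some r) m 0 = m 0 := by simp [AD.gen, DW, EW_apply]
        rw [this, ← smul_sub, norm_smul, norm_chi, one_mul]
        exact hy r
    · simp only [sum_const, card_univ, hcard, nsmul_eq_mul]; norm_num

theorem no_arep {ω : Ultrafilter ℕ} {v : ℕ → GG → HH →L[ℂ] HH} (hv : ARep ω v)
    (hO : ∀ n g, v n g ∈ Gen SS) (hb : ∀ r < 5, ∀ᶠ n in ω, r < ‖tb (v n)‖) : False := by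
  obtain ⟨n, h1, h2, h3⟩ := ((hb (5 - (1 / 6000) ^ 2 / 4) (by norm_num)).and
    ((con_improve hv (κ := 1 / 20000000) (by norm_num)).and
      (con_step hv (κ := 1 / 20000000) (by norm_num) (by norm_num)))).exists
  refine not_con (hO n) (hv.le n) fun k => h2 k ?_
  induction k with
  | zero => exact con_base (hv.le n) h1
  | succ k ih => exact h3 k (h2 k ih)

theorem no_embed {A : Type} [CStarAlgebra A] (u : GG →* unitary A) (hu : IsFullGroupCStar A u)
    (ω : Ultrafilter ℕ) (φ : ℕ → A → Gen SS) : ¬ IsUltrapowerEmbedding ω A (Gen SS) φ := by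
  rintro ⟨-, hadd, hsm, hmul, -, hone, hnorm⟩
  obtain ⟨B, _, w, hw⟩ := base_rep
  obtain ⟨ψ, hψ⟩ := hu.2 B w
  have h5 : 5 ≤ ‖tb fun g => (u g : A)‖ := by
    refine hw.trans (le_trans (le_of_eq ?_) (NonUnitalStarAlgHom.norm_apply_le ψ _))
    simp only [tb, map_add, map_smul, map_one, hψ]
  haveI : Nontrivial A := by
    rcases subsingleton_or_nontrivial A with h | h
    · rw [Subsingleton.elim (tb _) 0, norm_zero] at h5; norm_num at h5
    · exact h
  -- asymptotic equality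
  let E : (ℕ → Gen SS) → (ℕ → Gen SS) → Prop := fun a b => Tendsto (fun n => a n - b n) ω (𝓝 0)
  have ofn : ∀ {a b : ℕ → Gen SS}, Tendsto (fun n => ‖a n - b n‖) ω (𝓝 0) → E a b :=
    fun h => tendsto_zero_iff_norm_tendsto_zero.mpr h
  let v : ℕ → GG → Gen SS := fun n g => (((max 1 ‖φ n (u g)‖)⁻¹ : ℝ) : ℂ) • φ n (u g)
  have vle : ∀ n g, ‖v n g‖ ≤ 1 := fun n g => by
    have : 0 < max 1 ‖φ n (u g)‖ := lt_max_of_lt_left one_pos
    rw [norm_smul, Complex.norm_real, Real.norm_of_nonneg (by positivity), inv_mul_le_iff₀ this,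
      mul_one]
    exact le_max_right _ _
  have hn1 : ∀ g, Tendsto (fun n => ‖φ n (u g)‖) ω (𝓝 1) := fun g => by
    simpa using hnorm (u g)
  have hvφ : ∀ g, Tendsto (fun n => v n g - φ n (u g)) ω (𝓝 0) := fun g => by
    rw [tendsto_zero_iff_norm_tendsto_zero]
    have h1 := ((((Tendsto.max (tendsto_const_nhds (x := (1 : ℝ))) (hn1 g)).inv₀ (by simp)).sub_const 1).abs).mul (hn1 g)
    simp only [max_self, inv_one, sub_self, abs_zero, zero_mul] at h1
    refine h1.congr fun n => ?_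
    rw [← Real.norm_eq_abs, ← Complex.norm_real, ← norm_smul, Complex.ofReal_sub, sub_smul]; simp [v]
  refine no_arep (ω := ω) (v := fun n g => (v n g : HH →L[ℂ] HH)) ⟨vle, fun g h => ?_, ?_⟩
    (fun n g => (v n g).2) fun r hr => ?_
  · have h1 : Tendsto (fun n => v n g * (v n h - φ n (u h))) ω (𝓝 0) :=
      squeeze_zero_norm (fun n => (norm_mul_le _ _).trans
        (mul_le_of_le_one_left (norm_nonneg _) (vle n g))) (by simpa using (hvφ h).norm)
    have h2 : Tendsto (fun n => (v n g - φ n (u g)) * φ n (u h)) ω (𝓝 0) :=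
      squeeze_zero_norm (fun n => norm_mul_le _ _) (by simpa using (hvφ g).norm.mul (hn1 h))
    have h3 := (((h1.add h2).sub (ofn (hmul (u g) (u h)))).sub (hvφ (g * h))).norm
    simp only [add_zero, sub_zero, norm_zero] at h3
    refine h3.congr fun n => ?_
    change _ = ‖v n g * v n h - v n (g * h)‖
    congr 1
    simp only [map_mul, Submonoid.coe_mul]
    noncomm_ring
  · have h3 := ((hvφ 1).add (ofn hone)).norm
    simp only [add_zero, norm_zero] at h3
    refine h3.congr fun n => ?_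
    change _ = ‖v n 1 - 1‖
    congr 1
    simp
  · have h1 : Tendsto (fun n => φ n (tb fun g => (u g : A)) - tb (v n)) ω (𝓝 0) := by
      have a1 := ofn (hadd (1 + u (gG (some 0)) + u (gG (some 1)) + u (gG (some 2)))
        (conj (chi 1) • u (gG none)))
      have a2 := ofn (hadd (1 + u (gG (some 0)) + u (gG (some 1))) (u (gG (some 2))))
      have a3 := ofn (hadd (1 + u (gG (some 0))) (u (gG (some 1))))
      have a4 := ofn (hadd 1 (u (gG (some 0))))
      have a5 := ofn (hsm (conj (chi 1)) (u (gG none)))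
      have a6 := ((((((((a1.add a2).add a3).add a4).add a5).add (ofn hone)).sub (hvφ (gG (some 0)))).sub
        (hvφ (gG (some 1)))).sub (hvφ (gG (some 2)))).sub ((hvφ (gG none)).const_smul (conj (chi 1)))
      simp only [add_zero, sub_zero, smul_zero] at a6
      refine a6.congr fun n => ?_
      simp only [tb, smul_sub]
      abel
    have h2 := (hnorm (tb fun g => (u g : A))).sub h1.norm
    rw [norm_zero, sub_zero] at h2
    filter_upwards [h2.eventually_const_lt (hr.trans_le h5)] with n hn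
    have h3 := norm_sub_norm_le (φ n (tb fun g => (u g : A))) (tb (v n))
    change r < ‖tb (v n)‖
    linarith

end Crest.Agent.KE
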